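import Vale.Agent.P088.R2.H464.EP.Ops

/-!
# P088, stage 3, zone C: the multiplier inequalities (A3) and (A4)

Abstract version for arbitrary directions `a i` (`= d_{q_i}`), `b i` (`= d_{p_i}`) of a finite
dimensional space, arbitrary smooth `w i`, `v i` (`= W_{q_i}, W_{p_i}`):
`D_i = dv (a i) + w i`, `D_i^* = - dv (a i) + w i`, `K_i = dv (b i) + v i`,
`K_i^* = - dv (b i) + v i`, `R = ∑ D_i K_i`, `Y_i = 2 D_i^* β + K_i^* γ`.
-/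

open MeasureTheory
open scoped ContDiff

noncomputable section

namespace Vale.Agent.P088.R2.H591.C

open Vale.Agent.P088.R2.H464.EP

variable {E : Type} [NormedAddCommGroup E] [NormedSpace ℝ E]

/-- Product of test functions. -/
def mT (f g : TE E) : TE E := ⟨fun z => f.fn z * g.fn z, f.cd.mul g.cd, f.cs.mul_right⟩

@[simp] theorem mT_fn (f g : TE E) (z : E) : (mT f g).fn z = f.fn z * g.fn z := rfl

@[simp] theorem sum_fn {ι : Type*} (s : Finset ι) (f : ι → TE E) (z : E) :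
    (∑ i ∈ s, f i).fn z = ∑ i ∈ s, (f i).fn z := by
  classical
  induction s using Finset.induction_on with
  | empty => simp
  | insert i s hi ih => rw [Finset.sum_insert hi, Finset.sum_insert hi, TE.add_fn, ih]

variable [MeasurableSpace E] [BorelSpace E]

/-- The integral of a test function. -/
def In (μ : Measure E) [IsFiniteMeasureOnCompacts μ] : TE E →ₗ[ℝ] ℝ where
  toFun f := ∫ z, f.fn z ∂μ
  map_add' f g := by
    simp only [TE.add_fn]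
    exact integral_add (tint μ f) (tint μ g)
  map_smul' c f := by
    simp only [TE.smul_fn, RingHom.id_apply, smul_eq_mul]
    exact integral_const_mul c _

section
variable (μ : Measure E) [IsFiniteMeasureOnCompacts μ]

theorem ip_In (f g : TE E) : ip μ f g = In μ (mT f g) := rfl

variable {μ}

theorem In_mono {f g : TE E} (h : ∀ z, f.fn z ≤ g.fn z) : In μ f ≤ In μ g :=
  integral_mono (tint μ f) (tint μ g) h

end

variable (μ : Measure E) [μ.IsAddHaarMeasure] [FiniteDimensional ℝ E]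

/-- `2 ∫ f β ∂_a β = - ∫ (∂_a f) β²`. -/
theorem ip_ml_dv (a : E) (f : Sm E) (β : TE E) :
    2 * ip μ (ml f β) (dv a β) = - ip μ (ml (ds a f) β) β := by
  have h1 := ip_dv μ a (ml f β) β
  have h2 : dv a (ml f β) = ml f (dv a β) + ml (ds a f) β := by
    have := congrArg (fun A : Op E => A β) (dv_ml a f)
    simpa using this
  rw [h2, map_add, LinearMap.add_apply, ip_ml μ f (dv a β) β, ip_comm μ (dv a β)] at h1
  linarith

variable {ι : Type} [Fintype ι] (a b : ι → E) (w v : ι → Sm E)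

/-- `D_i^*` -/
def Ds (a : E) (w : Sm E) : Op E := - dv a + ml w

/-- `D_i` -/
def Dp (a : E) (w : Sm E) : Op E := dv a + ml w

omit [MeasurableSpace E] [BorelSpace E] [FiniteDimensional ℝ E] in
theorem Ds_apply (a : E) (w : Sm E) (f : TE E) : Ds a w f = - dv a f + ml w f := rfl

omit [MeasurableSpace E] [BorelSpace E] [FiniteDimensional ℝ E] in
theorem Dp_apply (a : E) (w : Sm E) (f : TE E) : Dp a w f = dv a f + ml w f := rfl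

/-- `Y_i = 2 D_i^* β + K_i^* γ` -/
def Yc (a b : E) (w v : Sm E) (β γ : TE E) : TE E := (2 : ℝ) • Ds a w β + Ds b v γ

theorem adj_D (a : E) (w : Sm E) : Adj μ (Dp a w) (Ds a w) :=
  (adj_dv μ a).add (adj_ml w)

/-- **(A3), exact.** -/
theorem a3_id (f : ι → Sm E) (β : TE E) :
    ∑ i, ip μ (ml (f i) β) ((2 : ℝ) • Ds (a i) (w i) β) =
      ip μ (ml (∑ i, (ds (a i) (f i) + 2 * (f i * w i))) β) β := by
  rw [map_sum, LinearMap.sum_apply, map_sum, LinearMap.sum_apply]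
  refine Finset.sum_congr rfl fun i _ => ?_
  have h1 := ip_ml_dv μ (a i) (f i) β
  have h2 : ml (ds (a i) (f i) + 2 * (f i * w i)) β =
      ml (ds (a i) (f i)) β + (2 : ℝ) • ml (f i) (ml (w i) β) := by
    rw [map_add, LinearMap.add_apply]
    congr 1
    ext z
    simp only [ml_apply, TE.smul_fn, MulMemClass.coe_mul, Pi.mul_apply]
    change (2 : ℝ) * (_ * _) * _ = _
    ring
  rw [h2, Ds_apply, map_add, LinearMap.add_apply, map_smul, map_smul, map_add, map_neg,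
    LinearMap.smul_apply, smul_eq_mul, smul_eq_mul, ip_ml μ (f i) (ml (w i) β) β,
    ip_comm μ (ml (w i) β)]
  linarith

/-- **(A3).** If `g ≤ ∑ ∂_i f_i + 2 ∑ f_i w_i + h` and `∑ f_i² ≤ g ρ`, `g, ρ ≥ 0`, then
`∫ g β² ≤ ∫ ρ |Y - K^* γ|² + 2 ∫ h β²`. -/
theorem a3 (f : ι → Sm E) (g h ρ : Sm E) (β γ : TE E)
    (hg0 : ∀ z, 0 ≤ (g : E → ℝ) z) (hρ0 : ∀ z, 0 ≤ (ρ : E → ℝ) z)
    (hg : ∀ z, (g : E → ℝ) z ≤ ∑ i, ((ds (a i) (f i) : E → ℝ) z +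
      2 * ((f i : E → ℝ) z * (w i : E → ℝ) z)) + (h : E → ℝ) z)
    (hf : ∀ z, ∑ i, (f i : E → ℝ) z ^ 2 ≤ (g : E → ℝ) z * (ρ : E → ℝ) z) :
    ip μ (ml g β) β ≤ ∑ i, ip μ (ml ρ (Yc (a i) (b i) (w i) (v i) β γ - Ds (b i) (v i) γ))
      (Yc (a i) (b i) (w i) (v i) β γ - Ds (b i) (v i) γ) + 2 * ip μ (ml h β) β := by
  have hid := a3_id μ a w f β
  have hY : ∀ i, Yc (a i) (b i) (w i) (v i) β γ - Ds (b i) (v i) γ =
      (2 : ℝ) • Ds (a i) (w i) β := fun i => by rw [Yc]; abel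
  simp only [hY]
  set X : ι → TE E := fun i => (2 : ℝ) • Ds (a i) (w i) β with hX
  have h1 : ip μ (ml g β) β ≤ ip μ (ml (∑ i, (ds (a i) (f i) + 2 * (f i * w i))) β) β +
      ip μ (ml h β) β := by
    rw [ip_In, ip_In, ip_In, ← map_add]
    refine In_mono fun z => ?_
    simp only [TE.add_fn, mT_fn, ml_apply]
    have e : ((∑ i, (ds (a i) (f i) + 2 * (f i * w i)) : Sm E) : E → ℝ) z =
        ∑ i, ((ds (a i) (f i) : E → ℝ) z + 2 * ((f i : E → ℝ) z * (w i : E → ℝ) z)) := by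
      rw [AddSubmonoidClass.coe_finsetSum, Finset.sum_apply]
      rfl
    rw [e]
    have := hg z
    nlinarith [mul_self_nonneg (β.fn z)]
  rw [← hid] at h1
  have h2 : ∑ i, ip μ (ml (f i) β) (X i) ≤
      1 / 2 * ip μ (ml g β) β + 1 / 2 * ∑ i, ip μ (ml ρ (X i)) (X i) := by
    simp only [ip_In, ← map_sum]
    rw [← smul_eq_mul, ← smul_eq_mul (1 / 2 : ℝ), ← map_smul, ← map_smul, ← map_add]
    refine In_mono fun z => ?_
    simp only [sum_fn, mT_fn, ml_apply, TE.add_fn, TE.smul_fn]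
    have hc : (∑ i, (f i : E → ℝ) z * (X i).fn z) ^ 2 ≤
        (∑ i, (f i : E → ℝ) z ^ 2) * ∑ i, (X i).fn z ^ 2 :=
      Finset.sum_mul_sq_le_sq_mul_sq _ _ _
    have e1 : ∑ i, (f i : E → ℝ) z * β.fn z * (X i).fn z =
        β.fn z * ∑ i, (f i : E → ℝ) z * (X i).fn z := by
      rw [Finset.mul_sum]; exact Finset.sum_congr rfl fun i _ => by ring
    have e2 : ∑ i, (ρ : E → ℝ) z * (X i).fn z * (X i).fn z =
        (ρ : E → ℝ) z * ∑ i, (X i).fn z ^ 2 := by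
      rw [Finset.mul_sum]; exact Finset.sum_congr rfl fun i _ => by ring
    rw [e1, e2]
    set s := ∑ i, (f i : E → ℝ) z * (X i).fn z
    set q := ∑ i, (X i).fn z ^ 2 with hq
    have hq0 : 0 ≤ q := Finset.sum_nonneg fun i _ => sq_nonneg _
    have h3 : s ^ 2 ≤ (g : E → ℝ) z * (ρ : E → ℝ) z * q :=
      hc.trans (mul_le_mul_of_nonneg_right (hf z) hq0)
    have hgz := hg0 z
    have hρz := hρ0 z
    have h4 : (β.fn z * s) ^ 2 ≤ ((g : E → ℝ) z * β.fn z ^ 2) * ((ρ : E → ℝ) z * q) := by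
      nlinarith [mul_le_mul_of_nonneg_left h3 (sq_nonneg (β.fn z))]
    have hA : 0 ≤ (g : E → ℝ) z * β.fn z ^ 2 := mul_nonneg hgz (sq_nonneg _)
    have hB : 0 ≤ (ρ : E → ℝ) z * q := mul_nonneg hρz hq0
    have h5 : β.fn z * s ≤ 1 / 2 * ((g : E → ℝ) z * β.fn z ^ 2) + 1 / 2 * ((ρ : E → ℝ) z * q) := by
      refine abs_le_of_sq_le_sq' ?_ (by positivity) |>.2
      nlinarith [sq_nonneg ((g : E → ℝ) z * β.fn z ^ 2 - (ρ : E → ℝ) z * q)]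
    calc _ ≤ _ := h5
      _ = _ := by ring
  linarith


/-- `R = ∑ D_i K_i` -/
def Rop : Op E := ∑ i, Dp (a i) (w i) * Dp (b i) (v i)

omit [MeasurableSpace E] [BorelSpace E] [FiniteDimensional ℝ E] in
/-- `D (g K^* γ) = - g D K γ + 2 g v D γ + 2 g (∂ v) γ + (∂ g) K^* γ`. -/
theorem D_g_Ks (a b : E) (w v g : Sm E) (γ : TE E) :
    Dp a w (ml g (Ds b v γ)) = - ml g (Dp a w (Dp b v γ)) + (2 : ℝ) • ml g (ml v (Dp a w γ)) +
      (2 : ℝ) • ml g (ml (ds a v) γ) + ml (ds a g) (Ds b v γ) := by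
  have hd : ∀ (u : Sm E) (f : TE E), dv a (ml u f) = ml u (dv a f) + ml (ds a u) f := by
    intro u f
    have := congrArg (fun A : Op E => A f) (dv_ml a u)
    simpa using this
  have hc : ∀ (u u' : Sm E) (f : TE E), ml u (ml u' f) = ml u' (ml u f) := by
    intro u u' f
    have := congrArg (fun A : Op E => A f) (mlc u u')
    simpa using this
  simp only [Dp_apply, Ds_apply, map_add, map_neg, hd, smul_add]
  rw [hc w g (dv b γ), hc w g (ml v γ), hc v w γ]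
  ext z
  simp only [TE.add_fn, TE.neg_fn, ml_apply, TE.smul_fn]
  ring

/-- **(A4), exact.** -/
theorem a4_id (g : Sm E) (β γ : TE E) :
    ∑ i, ip μ (ml g (Ds (b i) (v i) γ)) (Ds (b i) (v i) γ) =
      ∑ i, ip μ (ml g (Yc (a i) (b i) (w i) (v i) β γ)) (Ds (b i) (v i) γ)
      - 2 * ∑ i, ip μ (ml (ds (a i) g) β) (Ds (b i) (v i) γ)
      + 2 * ip μ (ml g β) (Rop a b w v γ)
      - 4 * ∑ i, ip μ (ml g β) (ml (v i) (Dp (a i) (w i) γ))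
      - 4 * ∑ i, ip μ (ml g β) (ml (ds (a i) (v i)) γ) := by
  have hR : ip μ (ml g β) (Rop a b w v γ) =
      ∑ i, ip μ (ml g β) (Dp (a i) (w i) (Dp (b i) (v i) γ)) := by
    rw [Rop, LinearMap.sum_apply, map_sum]
    rfl
  rw [hR]
  simp only [Finset.mul_sum, ← Finset.sum_sub_distrib, ← Finset.sum_add_distrib]
  refine Finset.sum_congr rfl fun i _ => ?_
  have hY : ip μ (ml g (Yc (a i) (b i) (w i) (v i) β γ)) (Ds (b i) (v i) γ) =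
      2 * ip μ (Ds (a i) (w i) β) (ml g (Ds (b i) (v i) γ)) +
        ip μ (ml g (Ds (b i) (v i) γ)) (Ds (b i) (v i) γ) := by
    rw [Yc, map_add, map_add, LinearMap.add_apply, map_smul, map_smul, LinearMap.smul_apply,
      smul_eq_mul, ip_ml μ g (Ds (a i) (w i) β)]
  have hA : ip μ (Ds (a i) (w i) β) (ml g (Ds (b i) (v i) γ)) =
      ip μ β (Dp (a i) (w i) (ml g (Ds (b i) (v i) γ))) := (adj_D μ (a i) (w i)).symm _ _
  rw [hY, hA, D_g_Ks]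
  simp only [map_add, map_neg, map_smul, smul_eq_mul]
  rw [← ip_ml μ g β, ← ip_ml μ g β, ← ip_ml μ g β, ← ip_ml μ (ds (a i) g) β]
  ring

theorem am_le {x A B : ℝ} (hA : 0 ≤ A) (hB : 0 ≤ B) (h : x ^ 2 ≤ 4 * (A * B)) : x ≤ A + B := by
  refine (abs_le_of_sq_le_sq' ?_ (by positivity)).2
  nlinarith [sq_nonneg (A - B)]

/-- The pointwise inequality behind (A4). -/
theorem a4_pw {ι : Type} [Fintype ι] (X Y dg : ι → ℝ) {G e' om β' γ' r g2 g4 g5 Vz d δ : ℝ}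
    (hδ : 0 < δ) (hGn : 0 ≤ G) (hen : 0 ≤ e') (hom : 0 ≤ om) (h2n : 0 ≤ g2) (h4n : 0 ≤ g4) (h5n : 0 ≤ g5)
    (h2 : ∑ i, dg i ^ 2 ≤ G * g2) (h2e : 4 * g2 ≤ δ * e') (h3 : G ^ 2 ≤ δ ^ 2 * (e' * om))
    (h4 : G ^ 2 ≤ e' * g4) (h5 : (G * d) ^ 2 ≤ e' * g5) :
    ∑ i, G * Y i * X i - 2 * ∑ i, dg i * β' * X i + 2 * (G * β' * r) - 4 * (G * β' * Vz)
      - 4 * (G * β' * (d * γ')) ≤
    1 / 2 * ∑ i, G * X i * X i + ∑ i, G * Y i * Y i + 4 * δ * (e' * β' * β') + δ * (om * r * r)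
      + 4 / δ * (g4 * Vz * Vz) + 4 / δ * (g5 * γ' * γ') := by
  set x2 := ∑ i, X i ^ 2 with hx2
  have hx20 : 0 ≤ x2 := Finset.sum_nonneg fun i _ => sq_nonneg _
  have ex : ∑ i, G * X i * X i = G * x2 := by
    rw [hx2, Finset.mul_sum]; exact Finset.sum_congr rfl fun i _ => by ring
  have e1 : ∑ i, G * Y i * X i ≤ ∑ i, G * Y i * Y i + 1 / 4 * (G * x2) := by
    rw [hx2, Finset.mul_sum, Finset.mul_sum, ← Finset.sum_add_distrib]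
    refine Finset.sum_le_sum fun i _ => ?_
    nlinarith [mul_nonneg hGn (sq_nonneg (Y i - 1 / 2 * X i))]
  have hb : 0 ≤ e' * (β' * β') := mul_nonneg hen (mul_self_nonneg _)
  have e2 : -(2 * ∑ i, dg i * β' * X i) ≤ 1 / 4 * (G * x2) + 4 * (g2 * (β' * β')) := by
    have hc : (∑ i, dg i * X i) ^ 2 ≤ (∑ i, dg i ^ 2) * x2 :=
      Finset.sum_mul_sq_le_sq_mul_sq _ _ _
    have es : ∑ i, dg i * β' * X i = β' * ∑ i, dg i * X i := by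
      rw [Finset.mul_sum]; exact Finset.sum_congr rfl fun i _ => by ring
    rw [es]
    set s := ∑ i, dg i * X i
    have h6 : s ^ 2 ≤ G * g2 * x2 := hc.trans (mul_le_mul_of_nonneg_right h2 hx20)
    refine am_le (by positivity)
      (mul_nonneg (by norm_num) (mul_nonneg h2n (mul_self_nonneg _))) ?_
    have h7 := mul_le_mul_of_nonneg_left h6 (mul_self_nonneg β')
    calc (-(2 * (β' * s))) ^ 2 = 4 * (β' * β' * s ^ 2) := by ring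
      _ ≤ 4 * (β' * β' * (G * g2 * x2)) := by linarith
      _ = _ := by ring
  have e2' : 4 * (g2 * (β' * β')) ≤ δ * (e' * (β' * β')) := by
    have := mul_le_mul_of_nonneg_right h2e (mul_self_nonneg β')
    calc 4 * (g2 * (β' * β')) = 4 * g2 * (β' * β') := by ring
      _ ≤ δ * e' * (β' * β') := this
      _ = _ := by ring
  have e3 : 2 * (G * β' * r) ≤ δ * (om * (r * r)) + δ * (e' * (β' * β')) := by
    refine am_le (mul_nonneg hδ.le (mul_nonneg hom (mul_self_nonneg _)))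
      (mul_nonneg hδ.le hb) ?_
    have := mul_le_mul_of_nonneg_right h3 (mul_nonneg (mul_self_nonneg β') (mul_self_nonneg r))
    calc (2 * (G * β' * r)) ^ 2 = 4 * (G ^ 2 * (β' * β' * (r * r))) := by ring
      _ ≤ 4 * (δ ^ 2 * (e' * om) * (β' * β' * (r * r))) := by linarith
      _ = _ := by ring
  have hδ0 : δ ≠ 0 := hδ.ne'
  have h4δ : 0 ≤ 4 / δ := by positivity
  have e4 : -(4 * (G * β' * Vz)) ≤ δ * (e' * (β' * β')) + 4 / δ * (g4 * (Vz * Vz)) := by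
    refine am_le (mul_nonneg hδ.le hb) (mul_nonneg h4δ (mul_nonneg h4n (mul_self_nonneg _))) ?_
    have := mul_le_mul_of_nonneg_right h4 (mul_nonneg (mul_self_nonneg β') (mul_self_nonneg Vz))
    calc (-(4 * (G * β' * Vz))) ^ 2 = 16 * (G ^ 2 * (β' * β' * (Vz * Vz))) := by ring
      _ ≤ 16 * (e' * g4 * (β' * β' * (Vz * Vz))) := by linarith
      _ = _ := by field_simp; ring
  have e5 : -(4 * (G * β' * (d * γ'))) ≤
      δ * (e' * (β' * β')) + 4 / δ * (g5 * (γ' * γ')) := by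
    refine am_le (mul_nonneg hδ.le hb) (mul_nonneg h4δ (mul_nonneg h5n (mul_self_nonneg _))) ?_
    have := mul_le_mul_of_nonneg_right h5 (mul_nonneg (mul_self_nonneg β') (mul_self_nonneg γ'))
    calc (-(4 * (G * β' * (d * γ')))) ^ 2 = 16 * ((G * d) ^ 2 * (β' * β' * (γ' * γ'))) := by ring
      _ ≤ 16 * (e' * g5 * (β' * β' * (γ' * γ'))) := by linarith
      _ = _ := by field_simp; ring
  rw [ex]
  have eb : e' * β' * β' = e' * (β' * β') := by ring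
  have ev : g4 * Vz * Vz = g4 * (Vz * Vz) := by ring
  have eg : g5 * γ' * γ' = g5 * (γ' * γ') := by ring
  have er : om * r * r = om * (r * r) := by ring
  rw [eb, ev, eg, er]
  linarith

omit [FiniteDimensional ℝ E] in
/-- The right side of the identity, estimated. -/
theorem a4_mid (g e ϖ g₂ g₄ g₅ : Sm E) (β γ Rg V : TE E) (dg vv : ι → Sm E) (X Y VD : ι → TE E)
    {δ : ℝ} (hδ : 0 < δ) (hV : V = ∑ i, VD i)
    (hg0 : ∀ z, 0 ≤ (g : E → ℝ) z) (he0 : ∀ z, 0 ≤ (e : E → ℝ) z)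
    (hm0 : ∀ z, 0 ≤ (ϖ : E → ℝ) z) (h20 : ∀ z, 0 ≤ (g₂ : E → ℝ) z)
    (h40 : ∀ z, 0 ≤ (g₄ : E → ℝ) z) (h50 : ∀ z, 0 ≤ (g₅ : E → ℝ) z)
    (h2 : ∀ z, ∑ i, (dg i : E → ℝ) z ^ 2 ≤ (g : E → ℝ) z * (g₂ : E → ℝ) z)
    (h2e : ∀ z, 4 * (g₂ : E → ℝ) z ≤ δ * (e : E → ℝ) z)
    (h3 : ∀ z, (g : E → ℝ) z ^ 2 ≤ δ ^ 2 * ((e : E → ℝ) z * (ϖ : E → ℝ) z))
    (h4 : ∀ z, (g : E → ℝ) z ^ 2 ≤ (e : E → ℝ) z * (g₄ : E → ℝ) z)
    (h5 : ∀ z, ((g : E → ℝ) z * ∑ i, (vv i : E → ℝ) z) ^ 2 ≤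
      (e : E → ℝ) z * (g₅ : E → ℝ) z) :
    ∑ i, ip μ (ml g (Y i)) (X i) - 2 * ∑ i, ip μ (ml (dg i) β) (X i)
      + 2 * ip μ (ml g β) Rg - 4 * ∑ i, ip μ (ml g β) (VD i)
      - 4 * ∑ i, ip μ (ml g β) (ml (vv i) γ) ≤
      1 / 2 * ∑ i, ip μ (ml g (X i)) (X i) + ∑ i, ip μ (ml g (Y i)) (Y i)
      + 4 * δ * ip μ (ml e β) β + δ * ip μ (ml ϖ Rg) Rg + 4 / δ * ip μ (ml g₄ V) V
      + 4 / δ * ip μ (ml g₅ γ) γ := by
  simp only [ip_In, ← map_sum]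
  simp only [← smul_eq_mul, ← map_smul, ← map_add, ← map_sub]
  refine In_mono fun z => ?_
  simp only [sum_fn, mT_fn, ml_apply, TE.add_fn, TE.sub_fn, TE.smul_fn, smul_eq_mul]
  have es4 : ∑ i, (g : E → ℝ) z * β.fn z * (VD i).fn z = (g : E → ℝ) z * β.fn z * V.fn z := by
    rw [hV, sum_fn, Finset.mul_sum]
  have es5 : ∑ i, (g : E → ℝ) z * β.fn z * ((vv i : E → ℝ) z * γ.fn z) =
      (g : E → ℝ) z * β.fn z * ((∑ i, (vv i : E → ℝ) z) * γ.fn z) := by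
    rw [Finset.sum_mul, Finset.mul_sum]
  rw [es4, es5]
  exact a4_pw (fun i => (X i).fn z) (fun i => (Y i).fn z) (fun i => (dg i : E → ℝ) z) hδ
    (hg0 z) (he0 z) (hm0 z) (h20 z) (h40 z) (h50 z) (h2 z) (h2e z) (h3 z) (h4 z) (h5 z)

/-- **(A4).** `∫ g |K^* γ|² ≤ 2 ∫ g |Y|² + 8 δ ∫ e β² + 2 δ ∫ ϖ |R γ|² + (8/δ) ∫ g₄ (v·Dγ)²
+ (8/δ) ∫ g₅ γ²`. -/
theorem a4 (g e ϖ g₂ g₄ g₅ : Sm E) (β γ : TE E) {δ : ℝ} (hδ : 0 < δ)
    (hg0 : ∀ z, 0 ≤ (g : E → ℝ) z) (he0 : ∀ z, 0 ≤ (e : E → ℝ) z)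
    (hm0 : ∀ z, 0 ≤ (ϖ : E → ℝ) z) (h20 : ∀ z, 0 ≤ (g₂ : E → ℝ) z)
    (h40 : ∀ z, 0 ≤ (g₄ : E → ℝ) z) (h50 : ∀ z, 0 ≤ (g₅ : E → ℝ) z)
    (h2 : ∀ z, ∑ i, (ds (a i) g : E → ℝ) z ^ 2 ≤ (g : E → ℝ) z * (g₂ : E → ℝ) z)
    (h2e : ∀ z, 4 * (g₂ : E → ℝ) z ≤ δ * (e : E → ℝ) z)
    (h3 : ∀ z, (g : E → ℝ) z ^ 2 ≤ δ ^ 2 * ((e : E → ℝ) z * (ϖ : E → ℝ) z))
    (h4 : ∀ z, (g : E → ℝ) z ^ 2 ≤ (e : E → ℝ) z * (g₄ : E → ℝ) z)
    (h5 : ∀ z, ((g : E → ℝ) z * ∑ i, (ds (a i) (v i) : E → ℝ) z) ^ 2 ≤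
      (e : E → ℝ) z * (g₅ : E → ℝ) z) :
    ∑ i, ip μ (ml g (Ds (b i) (v i) γ)) (Ds (b i) (v i) γ) ≤
      2 * ∑ i, ip μ (ml g (Yc (a i) (b i) (w i) (v i) β γ)) (Yc (a i) (b i) (w i) (v i) β γ)
      + 8 * δ * ip μ (ml e β) β
      + 2 * δ * ip μ (ml ϖ (Rop a b w v γ)) (Rop a b w v γ)
      + 8 / δ * ip μ (ml g₄ (∑ i, ml (v i) (Dp (a i) (w i) γ)))
          (∑ i, ml (v i) (Dp (a i) (w i) γ))
      + 8 / δ * ip μ (ml g₅ γ) γ := by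
  have hid := a4_id μ a b w v g β γ
  have key := a4_mid μ g e ϖ g₂ g₄ g₅ β γ (Rop a b w v γ) (∑ i, ml (v i) (Dp (a i) (w i) γ))
    (fun i => ds (a i) g) (fun i => ds (a i) (v i)) (fun i => Ds (b i) (v i) γ)
    (fun i => Yc (a i) (b i) (w i) (v i) β γ) (fun i => ml (v i) (Dp (a i) (w i) γ)) hδ rfl
    hg0 he0 hm0 h20 h40 h50 h2 h2e h3 h4 h5
  have e8 : 8 / δ = 2 * (4 / δ) := by ring
  rw [← hid] at key
  rw [e8]
  linarith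

omit [FiniteDimensional ℝ E] in
/-- `∫ ρ |Y - K^* γ|² ≤ 2 ∫ ρ |Y|² + 2 ∫ ρ |K^* γ|²`. -/
theorem sub_le (ρ : Sm E) (hρ0 : ∀ z, 0 ≤ (ρ : E → ℝ) z) (Y X : TE E) :
    ip μ (ml ρ (Y - X)) (Y - X) ≤ 2 * ip μ (ml ρ Y) Y + 2 * ip μ (ml ρ X) X := by
  simp only [ip_In, ← smul_eq_mul, ← map_smul, ← map_add]
  refine In_mono fun z => ?_
  simp only [mT_fn, ml_apply, TE.add_fn, TE.sub_fn, TE.smul_fn]
  nlinarith [mul_nonneg (hρ0 z) (sq_nonneg (Y.fn z + X.fn z))]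

/-- **(A3) + (A4).** The zero order term of region II:
`∫ g β² ≤ 6 ∫ ρ |Y|² + 16 δ ∫ e β² + 4 δ ∫ ϖ |R γ|² + (16/δ) ∫ g₄ (v·Dγ)² + (16/δ) ∫ g₅ γ² + 2 ∫ h β²`. -/
theorem a34 (f : ι → Sm E) (g h ρ e ϖ g₂ g₄ g₅ : Sm E) (β γ : TE E) {δ : ℝ} (hδ : 0 < δ)
    (hg0 : ∀ z, 0 ≤ (g : E → ℝ) z) (hρ0 : ∀ z, 0 ≤ (ρ : E → ℝ) z)
    (hg : ∀ z, (g : E → ℝ) z ≤ ∑ i, ((ds (a i) (f i) : E → ℝ) z +
      2 * ((f i : E → ℝ) z * (w i : E → ℝ) z)) + (h : E → ℝ) z)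
    (hf : ∀ z, ∑ i, (f i : E → ℝ) z ^ 2 ≤ (g : E → ℝ) z * (ρ : E → ℝ) z)
    (he0 : ∀ z, 0 ≤ (e : E → ℝ) z) (hm0 : ∀ z, 0 ≤ (ϖ : E → ℝ) z)
    (h20 : ∀ z, 0 ≤ (g₂ : E → ℝ) z)
    (h40 : ∀ z, 0 ≤ (g₄ : E → ℝ) z) (h50 : ∀ z, 0 ≤ (g₅ : E → ℝ) z)
    (h2 : ∀ z, ∑ i, (ds (a i) ρ : E → ℝ) z ^ 2 ≤ (ρ : E → ℝ) z * (g₂ : E → ℝ) z)
    (h2e : ∀ z, 4 * (g₂ : E → ℝ) z ≤ δ * (e : E → ℝ) z)
    (h3 : ∀ z, (ρ : E → ℝ) z ^ 2 ≤ δ ^ 2 * ((e : E → ℝ) z * (ϖ : E → ℝ) z))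
    (h4 : ∀ z, (ρ : E → ℝ) z ^ 2 ≤ (e : E → ℝ) z * (g₄ : E → ℝ) z)
    (h5 : ∀ z, ((ρ : E → ℝ) z * ∑ i, (ds (a i) (v i) : E → ℝ) z) ^ 2 ≤
      (e : E → ℝ) z * (g₅ : E → ℝ) z) :
    ip μ (ml g β) β ≤
      6 * ∑ i, ip μ (ml ρ (Yc (a i) (b i) (w i) (v i) β γ)) (Yc (a i) (b i) (w i) (v i) β γ)
      + 16 * δ * ip μ (ml e β) β
      + 4 * δ * ip μ (ml ϖ (Rop a b w v γ)) (Rop a b w v γ)
      + 16 / δ * ip μ (ml g₄ (∑ i, ml (v i) (Dp (a i) (w i) γ)))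
          (∑ i, ml (v i) (Dp (a i) (w i) γ))
      + 16 / δ * ip μ (ml g₅ γ) γ + 2 * ip μ (ml h β) β := by
  have h1 := a3 μ a b w v f g h ρ β γ hg0 hρ0 hg hf
  have h2' := a4 μ a b w v ρ e ϖ g₂ g₄ g₅ β γ hδ hρ0 he0 hm0 h20 h40 h50 h2 h2e h3 h4 h5
  have h3' : ∑ i, ip μ (ml ρ (Yc (a i) (b i) (w i) (v i) β γ - Ds (b i) (v i) γ))
      (Yc (a i) (b i) (w i) (v i) β γ - Ds (b i) (v i) γ) ≤
      2 * ∑ i, ip μ (ml ρ (Yc (a i) (b i) (w i) (v i) β γ)) (Yc (a i) (b i) (w i) (v i) β γ)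
      + 2 * ∑ i, ip μ (ml ρ (Ds (b i) (v i) γ)) (Ds (b i) (v i) γ) := by
    rw [Finset.mul_sum, Finset.mul_sum, ← Finset.sum_add_distrib]
    exact Finset.sum_le_sum fun i _ => sub_le μ ρ hρ0 _ _
  have e8 : 16 / δ = 2 * (8 / δ) := by ring
  rw [e8]
  linarith

end Vale.Agent.P088.R2.H591.C
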