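import Vale.Agent.P088.R2.H591.C.A34
import Vale.Agent.P088.R2.H960.C.Inst

/-!
# P088, stage 3, zone C: the zero order term of region II

Instance of `a34` for `ρ = X² / r²`, `f_i = E ρ q_i`, with an arbitrary cut-off `X` supported where
`E r²` is large, and an arbitrary weight whose `W_q` satisfies `W_q · q ≥ (3/4) E r²`.
-/

open MeasureTheory Set Filter
open scoped ContDiff Topology

noncomputable section

namespace Vale.Agent.P088.R2.H591.C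

open Vale.Agent.P088.R2.H464.EP
open Vale.Agent.P088.R2.H960.C (YY Yi Ts r2)

variable {E : Type} [NormedAddCommGroup E] [NormedSpace ℝ E]

/-- Quotient of smooth functions, the denominator vanishing only off the support. -/
theorem cd_div {F G : E → ℝ} (hF : ContDiff ℝ ∞ F) (hG : ContDiff ℝ ∞ G)
    (h : ∀ z ∈ tsupport F, G z ≠ 0) : ContDiff ℝ ∞ fun z => F z / G z := by
  refine contDiff_iff_contDiffAt.2 fun z => ?_
  by_cases hz : z ∈ tsupport F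
  · exact hF.contDiffAt.div hG.contDiffAt (h z hz)
  · have h0 : F =ᶠ[𝓝 z] 0 := notMem_tsupport_iff_eventuallyEq.1 hz
    have h1 : (fun z => F z / G z) =ᶠ[𝓝 z] fun _ => 0 := h0.mono fun y hy => by
      have h2 : F y = 0 := hy
      change F y / G y = 0
      rw [h2, zero_div]
    exact (contDiffAt_const (c := (0 : ℝ))).congr_of_eventuallyEq h1

theorem fderiv_off {F : E → ℝ} {z : E} (hz : z ∉ tsupport F) (v : E) : fderiv ℝ F z v = 0 := by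
  have h0 : F =ᶠ[𝓝 z] fun _ => (0 : ℝ) := notMem_tsupport_iff_eventuallyEq.1 hz
  rw [h0.fderiv_eq]
  simp

variable {ι : Type} [Fintype ι]

/-- `K_i c` -/
def Kf (β : ι → E) (B : ι → E → ℝ) (c : E → ℝ) (i : ι) (z : E) : ℝ :=
  fderiv ℝ c z (β i) + B i z * c z

/-- `R c = ∑ D_i K_i c` -/
def Rf (α β : ι → E) (A B : ι → E → ℝ) (c : E → ℝ) (z : E) : ℝ :=
  ∑ i, (fderiv ℝ (Kf β B c i) z (α i) + A i z * Kf β B c i z)

/-- `W_p · D c` -/
def Vf (α : ι → E) (A B : ι → E → ℝ) (c : E → ℝ) (z : E) : ℝ :=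
  ∑ i, B i z * (fderiv ℝ c z (α i) + A i z * c z)

/-- `|∂_q X|² / r²` -/
def Dq (α : ι → E) (lq : ι → E →L[ℝ] ℝ) (X : E → ℝ) (z : E) : ℝ :=
  (∑ i, fderiv ℝ X z (α i) ^ 2) / r2 lq z

section pw

variable {n x e R S δ d : ℝ} {q xi w : ι → ℝ}

theorem p_hg (hR : 0 < R) (he : 0 < e) (hq : ∑ i, q i ^ 2 = R)
    (hn : 2 ≤ (Fintype.card ι : ℝ)) (hw : 3 / 4 * e * R ≤ ∑ i, w i * q i) :
    x ^ 2 * e ^ 2 ≤ ∑ i, (e * ((2 * x * xi i / R - x ^ 2 * (2 * q i) / R ^ 2) * q i + x ^ 2 / R) +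
      2 * (e * (x ^ 2 / R) * q i * w i)) + 2 * ((∑ i, xi i ^ 2) / R) := by
  set s := ∑ i, xi i * q i with hs
  set D := ∑ i, xi i ^ 2 with hD
  have hc : s ^ 2 ≤ D * R := by
    rw [← hq]; exact Finset.sum_mul_sq_le_sq_mul_sq _ _ _
  have h1 : ∑ i, (e * ((2 * x * xi i / R - x ^ 2 * (2 * q i) / R ^ 2) * q i + x ^ 2 / R) +
      2 * (e * (x ^ 2 / R) * q i * w i)) =
      e * (2 * x / R * s - 2 * x ^ 2 / R ^ 2 * R + (Fintype.card ι : ℝ) * (x ^ 2 / R)) +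
      2 * e * (x ^ 2 / R) * ∑ i, w i * q i := by
    have e0 : (Fintype.card ι : ℝ) * (x ^ 2 / R) = ∑ _i : ι, x ^ 2 / R := by
      rw [Finset.sum_const, Finset.card_univ, nsmul_eq_mul]
    rw [e0, ← hq, hs, Finset.mul_sum, Finset.mul_sum, ← Finset.sum_sub_distrib,
      ← Finset.sum_add_distrib, Finset.mul_sum, Finset.mul_sum, ← Finset.sum_add_distrib]
    refine Finset.sum_congr rfl fun i _ => ?_
    ring
  rw [h1]
  have h2 : 2 * e * (x ^ 2 / R) * (3 / 4 * e * R) ≤ 2 * e * (x ^ 2 / R) * ∑ i, w i * q i :=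
    mul_le_mul_of_nonneg_left hw (by positivity)
  have h3 : 2 * e * (x ^ 2 / R) * (3 / 4 * e * R) = 3 / 2 * (x ^ 2 * e ^ 2) := by
    field_simp; ring
  have h4 : 0 ≤ e * ((Fintype.card ι : ℝ) * (x ^ 2 / R) - 2 * x ^ 2 / R ^ 2 * R) := by
    have : e * ((Fintype.card ι : ℝ) * (x ^ 2 / R) - 2 * x ^ 2 / R ^ 2 * R) =
        e * (((Fintype.card ι : ℝ) - 2) * (x ^ 2 / R)) := by
      field_simp
    rw [this]
    have : 0 ≤ (Fintype.card ι : ℝ) - 2 := by linarith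
    positivity
  have h5 : -(e * (2 * x / R * s)) ≤ 1 / 2 * (x ^ 2 * e ^ 2) + 2 * (D / R) := by
    have h6 : s ^ 2 / R ^ 2 ≤ D / R := by
      rw [div_le_div_iff₀ (by positivity) hR]
      nlinarith
    have h7 : 2 * (s / R) ^ 2 + 1 / 2 * (x * e) ^ 2 + 2 * (x * e) * (s / R) ≥ 0 := by
      nlinarith [sq_nonneg (2 * (s / R) + x * e)]
    have h8 : e * (2 * x / R * s) = 2 * (x * e) * (s / R) := by ring
    rw [h8]
    have h9 : (s / R) ^ 2 = s ^ 2 / R ^ 2 := by rw [div_pow]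
    have h10 : (x * e) ^ 2 = x ^ 2 * e ^ 2 := by ring
    rw [h9, h10] at h7
    linarith
  nlinarith [h2, h3, h4, h5]

theorem p_hf (hR : 0 < R) (hq : ∑ i, q i ^ 2 = R) :
    ∑ i, (e * (x ^ 2 / R) * q i) ^ 2 ≤ x ^ 2 * e ^ 2 * (x ^ 2 / R) := by
  have h1 : ∑ i, (e * (x ^ 2 / R) * q i) ^ 2 = (e * (x ^ 2 / R)) ^ 2 * R := by
    rw [← hq, Finset.mul_sum]
    exact Finset.sum_congr rfl fun i _ => by ring
  rw [h1]
  refine le_of_eq ?_
  field_simp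

theorem p_h2 (hR : 0 < R) (hq : ∑ i, q i ^ 2 = R) :
    ∑ i, (2 * x * xi i / R - x ^ 2 * (2 * q i) / R ^ 2) ^ 2 ≤
      x ^ 2 / R * (8 * ((∑ i, xi i ^ 2) / R) + 8 * (x ^ 2 / R ^ 2)) := by
  have h1 : ∀ i, (2 * x * xi i / R - x ^ 2 * (2 * q i) / R ^ 2) ^ 2 ≤
      8 * (x ^ 2 / R ^ 2) * xi i ^ 2 + 8 * (x ^ 4 / R ^ 4) * q i ^ 2 := by
    intro i
    have := sq_nonneg (2 * x * xi i / R + x ^ 2 * (2 * q i) / R ^ 2)
    have e1 : (2 * x * xi i / R) ^ 2 = 4 * (x ^ 2 / R ^ 2) * xi i ^ 2 := by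
      field_simp; ring
    have e2 : (x ^ 2 * (2 * q i) / R ^ 2) ^ 2 = 4 * (x ^ 4 / R ^ 4) * q i ^ 2 := by
      field_simp; ring
    nlinarith
  refine (Finset.sum_le_sum fun i _ => h1 i).trans (le_of_eq ?_)
  rw [Finset.sum_add_distrib, ← Finset.mul_sum, ← Finset.mul_sum, hq]
  field_simp

theorem p_t (hδ : 0 < δ) (ht : 1 / δ ≤ e * R) : 1 ≤ δ ^ 2 * (e * R) ^ 2 := by
  have h1 : 1 ≤ δ * (e * R) := by
    rw [div_le_iff₀ hδ] at ht; linarith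
  nlinarith

theorem p_h2e (hR : 0 < R) (hδ : 0 < δ) (hδ1 : δ ≤ 1 / 32) (ht : 1 / δ ≤ e * R) {D : ℝ} :
    4 * (8 * D + 8 * (x ^ 2 / R ^ 2)) ≤ δ * (x ^ 2 * e ^ 2 + 32 / δ * D) := by
  have h1 := p_t hδ ht
  have h2 : δ * (32 / δ * D) = 32 * D := by field_simp
  have h3 : 32 * (x ^ 2 / R ^ 2) ≤ δ * (x ^ 2 * e ^ 2) := by
    have h4 : 32 ≤ δ * (e * R) ^ 2 := by
      have h5 : 1 / δ ≤ δ * (e * R) ^ 2 := by
        rw [div_le_iff₀ hδ]; linarith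
      have h6 : 32 ≤ 1 / δ := by rw [le_div_iff₀ hδ]; linarith
      linarith
    have h7 : 32 * (x ^ 2 / R ^ 2) ≤ (δ * (e * R) ^ 2) * (x ^ 2 / R ^ 2) :=
      mul_le_mul_of_nonneg_right h4 (by positivity)
    refine h7.trans (le_of_eq ?_)
    field_simp
  linarith

theorem p_h3 (hR : 0 < R) (hδ : 0 < δ) (ht : 1 / δ ≤ e * R) {D : ℝ} (hD : 0 ≤ D) :
    (x ^ 2 / R) ^ 2 ≤ δ ^ 2 * ((x ^ 2 * e ^ 2 + 32 / δ * D) * x ^ 2) := by
  have h1 := p_t hδ ht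
  have h2 : (x ^ 2 / R) ^ 2 ≤ (δ ^ 2 * (e * R) ^ 2) * (x ^ 2 / R) ^ 2 :=
    le_mul_of_one_le_left (by positivity) h1
  have h3 : (δ ^ 2 * (e * R) ^ 2) * (x ^ 2 / R) ^ 2 = δ ^ 2 * (x ^ 2 * e ^ 2 * x ^ 2) := by
    field_simp
  rw [h3] at h2
  have h4 : 0 ≤ δ ^ 2 * (32 / δ * D * x ^ 2) := by positivity
  nlinarith

theorem p_h4 (hR : 0 < R) (he : 0 < e) (hδ : 0 < δ) {D : ℝ} (hD : 0 ≤ D) :
    (x ^ 2 / R) ^ 2 ≤ (x ^ 2 * e ^ 2 + 32 / δ * D) * (x ^ 2 / (e * R) ^ 2) := by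
  have h3 : (x ^ 2 * e ^ 2) * (x ^ 2 / (e * R) ^ 2) = (x ^ 2 / R) ^ 2 := by
    field_simp
  have h4 : 0 ≤ 32 / δ * D * (x ^ 2 / (e * R) ^ 2) := by positivity
  nlinarith

theorem p_h5 (hR : 0 < R) (he : 0 < e) (hδ : 0 < δ) {D : ℝ} (hD : 0 ≤ D) :
    (x ^ 2 / R * d) ^ 2 ≤ (x ^ 2 * e ^ 2 + 32 / δ * D) * (x ^ 2 / (e * R) ^ 2 * d ^ 2) := by
  have h3 := mul_le_mul_of_nonneg_right (p_h4 (x := x) hR he hδ hD) (sq_nonneg d)
  nlinarith

end pw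

theorem r2_cd (lq : ι → E →L[ℝ] ℝ) : ContDiff ℝ ∞ (r2 lq) := by
  unfold r2
  exact ContDiff.sum fun i _ => (lq i).contDiff.pow 2

theorem r2_fd [DecidableEq ι] {α : ι → E} {lq : ι → E →L[ℝ] ℝ}
    (qa : ∀ i j, lq i (α j) = if i = j then 1 else 0) (z : E) (i : ι) :
    fderiv ℝ (r2 lq) z (α i) = 2 * lq i z := by
  have h : ∀ j ∈ Finset.univ, HasFDerivAt (fun z => lq j z ^ 2) ((2 * lq j z) • lq j) z := by
    intro j _
    have := ((lq j).hasFDerivAt (x := z)).pow 2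
    simpa using this
  have h2 := HasFDerivAt.fun_sum h
  have h3 : (r2 lq) = fun z => ∑ j, lq j z ^ 2 := rfl
  rw [h3, h2.fderiv]
  simp only [_root_.sum_apply, _root_.smul_apply, smul_eq_mul, qa,
    mul_ite, mul_one, mul_zero, Finset.sum_ite_eq', Finset.mem_univ, if_true]

variable [MeasurableSpace E] [BorelSpace E] [FiniteDimensional ℝ E]
  (μ : Measure E) [μ.IsAddHaarMeasure]

/-- **The zero order term of region II.** -/
theorem a34i [DecidableEq ι] (hn : 2 ≤ Fintype.card ι) {α β : ι → E} {lq : ι → E →L[ℝ] ℝ}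
    (qa : ∀ i j, lq i (α j) = if i = j then 1 else 0)
    {A B : ι → E → ℝ} (hA : ∀ i, ContDiff ℝ ∞ (A i)) (hB : ∀ i, ContDiff ℝ ∞ (B i))
    {Ef X : E → ℝ} (hE : ContDiff ℝ ∞ Ef) (hE0 : ∀ z, 0 < Ef z)
    (hE1 : ∀ z i, fderiv ℝ Ef z (α i) = 0) (hX : ContDiff ℝ ∞ X)
    {δ : ℝ} (hδ : 0 < δ) (hδ1 : δ ≤ 1 / 32)
    (hXt : ∀ z ∈ tsupport X, 1 / δ ≤ Ef z * r2 lq z)
    (hXw : ∀ z ∈ tsupport X, 3 / 4 * Ef z * r2 lq z ≤ ∑ i, A i z * lq i z)
    {b c : E → ℝ} (hb : Ts b) (hc : Ts c) :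
    ∫ z, X z ^ 2 * Ef z ^ 2 * b z ^ 2 ∂μ ≤
      12 * ∫ z, X z ^ 2 / r2 lq z * YY α β A B b c z ∂μ
      + 8 * δ * ∫ z, X z ^ 2 * Rf α β A B c z ^ 2 ∂μ
      + 32 / δ * ∫ z, X z ^ 2 / (Ef z * r2 lq z) ^ 2 * Vf α A B c z ^ 2 ∂μ
      + 32 / δ * ∫ z, X z ^ 2 / (Ef z * r2 lq z) ^ 2 *
          (∑ i, fderiv ℝ (B i) z (α i)) ^ 2 * c z ^ 2 ∂μ
      + 1032 * ∫ z, Dq α lq X z * b z ^ 2 ∂μ := by
  have hr2 := r2_cd lq
  have hRp : ∀ z ∈ tsupport X, 0 < r2 lq z := by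
    intro z hz
    by_contra h
    push Not at h
    have h1 := hXt z hz
    have h2 : 0 < 1 / δ := by positivity
    have h3 : Ef z * r2 lq z ≤ 0 := mul_nonpos_of_nonneg_of_nonpos (hE0 z).le h
    linarith
  have hts : ∀ k : ℕ, k ≠ 0 → tsupport (fun z => X z ^ k) ⊆ tsupport X := by
    intro k hk
    refine closure_mono fun z hz => ?_
    simp only [Function.mem_support] at hz ⊢
    exact fun h => hz (by rw [h, zero_pow hk])
  -- the smooth functions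
  have hX2 : ContDiff ℝ ∞ fun z => X z ^ 2 := hX.pow 2
  have hρc : ContDiff ℝ ∞ fun z => X z ^ 2 / r2 lq z :=
    cd_div hX2 hr2 fun z hz => (hRp z (hts 2 (by norm_num) hz)).ne'
  have hXd : ContDiff ℝ ∞ fun z => ∑ i, fderiv ℝ X z (α i) ^ 2 :=
    ContDiff.sum fun i _ => ((hX.fderiv_right (m := ∞) (by simp)).clm_apply contDiff_const).pow 2
  have hXds : tsupport (fun z => ∑ i, fderiv ℝ X z (α i) ^ 2) ⊆ tsupport X := by
    refine closure_minimal (fun z hz => ?_) isClosed_closure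
    by_contra h
    refine hz (Finset.sum_eq_zero fun i _ => ?_)
    rw [fderiv_off h]; norm_num
  have hDc : ContDiff ℝ ∞ (Dq α lq X) :=
    cd_div hXd hr2 fun z hz => (hRp z (hXds hz)).ne'
  have hR2 : ContDiff ℝ ∞ fun z => r2 lq z ^ 2 := hr2.pow 2
  have hER2 : ContDiff ℝ ∞ fun z => (Ef z * r2 lq z) ^ 2 := (hE.mul hr2).pow 2
  have hg22 : ContDiff ℝ ∞ fun z => X z ^ 2 / r2 lq z ^ 2 :=
    cd_div hX2 hR2 fun z hz => (pow_pos (hRp z (hts 2 (by norm_num) hz)) 2).ne'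
  have hg4c : ContDiff ℝ ∞ fun z => X z ^ 2 / (Ef z * r2 lq z) ^ 2 :=
    cd_div hX2 hER2 fun z hz =>
      (pow_pos (mul_pos (hE0 z) (hRp z (hts 2 (by norm_num) hz))) 2).ne'
  have hdB : ContDiff ℝ ∞ fun z => ∑ i, fderiv ℝ (B i) z (α i) :=
    ContDiff.sum fun i _ => ((hB i).fderiv_right (m := ∞) (by simp)).clm_apply contDiff_const
  let w : ι → Sm E := fun i => ⟨A i, hA i⟩
  let v : ι → Sm E := fun i => ⟨B i, hB i⟩
  let ρ : Sm E := ⟨_, hρc⟩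
  let f : ι → Sm E := fun i => ⟨fun z => Ef z * (X z ^ 2 / r2 lq z) * lq i z,
    (hE.mul hρc).mul (lq i).contDiff⟩
  let g : Sm E := ⟨fun z => X z ^ 2 * Ef z ^ 2, hX2.mul (hE.pow 2)⟩
  let h : Sm E := ⟨fun z => 2 * Dq α lq X z, contDiff_const.mul hDc⟩
  let e : Sm E := ⟨fun z => X z ^ 2 * Ef z ^ 2 + 32 / δ * Dq α lq X z,
    (hX2.mul (hE.pow 2)).add (contDiff_const.mul hDc)⟩
  let om : Sm E := ⟨fun z => X z ^ 2, hX2⟩
  let g₂ : Sm E := ⟨fun z => 8 * Dq α lq X z + 8 * (X z ^ 2 / r2 lq z ^ 2),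
    (contDiff_const.mul hDc).add (contDiff_const.mul hg22)⟩
  let g₄ : Sm E := ⟨fun z => X z ^ 2 / (Ef z * r2 lq z) ^ 2, hg4c⟩
  let g₅ : Sm E := ⟨fun z => X z ^ 2 / (Ef z * r2 lq z) ^ 2 *
    (∑ i, fderiv ℝ (B i) z (α i)) ^ 2, hg4c.mul (hdB.pow 2)⟩
  let β' : TE E := ⟨b, hb.1, hb.2⟩
  let γ' : TE E := ⟨c, hc.1, hc.2⟩
  -- off the support everything vanishes
  have hXoff : ∀ z, z ∉ tsupport X → X z = 0 := fun z hz => image_eq_zero_of_notMem_tsupport hz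
  have hDoff : ∀ z, z ∉ tsupport X → Dq α lq X z = 0 := fun z hz => by
    unfold Dq
    rw [Finset.sum_eq_zero fun i _ => by rw [fderiv_off hz]; norm_num, zero_div]
  have hD0 : ∀ z, 0 ≤ Dq α lq X z := fun z => by
    unfold Dq
    have : 0 ≤ r2 lq z := Finset.sum_nonneg fun _ _ => sq_nonneg _
    have h1 : 0 ≤ ∑ i, fderiv ℝ X z (α i) ^ 2 := Finset.sum_nonneg fun _ _ => sq_nonneg _
    positivity
  have hr20 : ∀ z, 0 ≤ r2 lq z := fun z => Finset.sum_nonneg fun _ _ => sq_nonneg _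
  -- derivatives
  have hdρ : ∀ z ∈ tsupport X, ∀ i, fderiv ℝ (fun z => X z ^ 2 / r2 lq z) z (α i) =
      2 * X z * fderiv ℝ X z (α i) / r2 lq z - X z ^ 2 * (2 * lq i z) / r2 lq z ^ 2 := by
    intro z hz i
    have hRz := (hRp z hz).ne'
    have hXdz : DifferentiableAt ℝ X z := (hX.differentiable (by simp)) z
    have hrz : DifferentiableAt ℝ (r2 lq) z := (hr2.differentiable (by simp)) z
    have h1 : HasFDerivAt (fun z => X z ^ 2) ((2 * X z) • fderiv ℝ X z) z := by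
      simpa using hXdz.hasFDerivAt.pow 2
    have h2 := h1.mul ((hasDerivAt_inv hRz).comp_hasFDerivAt z hrz.hasFDerivAt)
    have h3 : (fun z => X z ^ 2 / r2 lq z) = fun z => X z ^ 2 * (r2 lq z)⁻¹ :=
      funext fun z => div_eq_mul_inv _ _
    rw [h3]
    have h4 := h2.fderiv
    change fderiv ℝ (fun z => X z ^ 2 * (r2 lq z)⁻¹) z = _ at h4
    rw [h4]
    simp only [_root_.add_apply, _root_.smul_apply, smul_eq_mul,
      r2_fd qa, Function.comp_apply]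
    field_simp
    ring
  have hdf : ∀ z ∈ tsupport X, ∀ i, fderiv ℝ (f i : E → ℝ) z (α i) =
      Ef z * ((2 * X z * fderiv ℝ X z (α i) / r2 lq z -
        X z ^ 2 * (2 * lq i z) / r2 lq z ^ 2) * lq i z + X z ^ 2 / r2 lq z) := by
    intro z hz i
    have hρz : DifferentiableAt ℝ (fun z => X z ^ 2 / r2 lq z) z :=
      (hρc.differentiable (by simp)) z
    have hEz : DifferentiableAt ℝ Ef z := (hE.differentiable (by simp)) z
    have h1 := (hEz.hasFDerivAt.mul hρz.hasFDerivAt).mul ((lq i).hasFDerivAt (x := z))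
    have h2 := h1.fderiv
    change fderiv ℝ (f i : E → ℝ) z = _ at h2
    rw [h2]
    simp only [_root_.add_apply, _root_.smul_apply, smul_eq_mul,
      hdρ z hz, hE1, qa, if_true, Pi.mul_apply]
    ring
  have hgz : ∀ z, 0 ≤ (g : E → ℝ) z := fun z => by change 0 ≤ X z ^ 2 * Ef z ^ 2; positivity
  have hρz : ∀ z, 0 ≤ (ρ : E → ℝ) z := fun z => by
    have := hr20 z
    change 0 ≤ X z ^ 2 / r2 lq z
    positivity
  have c1 : ∀ z, (g : E → ℝ) z ≤ ∑ i, ((ds (α i) (f i) : E → ℝ) z +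
      2 * ((f i : E → ℝ) z * (w i : E → ℝ) z)) + (h : E → ℝ) z := by
    intro z
    by_cases hz : z ∈ tsupport X
    · have h1 := p_hg (x := X z) (xi := fun i => fderiv ℝ X z (α i)) (q := fun i => lq i z)
        (w := fun i => A i z) (hRp z hz) (hE0 z) rfl (by exact_mod_cast hn) (hXw z hz)
      refine h1.trans (le_of_eq ?_)
      change _ = ∑ i, (fderiv ℝ (f i : E → ℝ) z (α i) +
        2 * (Ef z * (X z ^ 2 / r2 lq z) * lq i z * A i z)) + 2 * Dq α lq X z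
      simp only [hdf z hz]
      rfl
    · have h1 : ∀ i, fderiv ℝ (f i : E → ℝ) z (α i) = 0 := by
        intro i
        refine fderiv_off (fun h2 => hz ?_) _
        refine (closure_mono ?_) h2
        intro y hy
        simp only [Function.mem_support] at hy ⊢
        intro h3
        refine hy ?_
        change Ef y * (X y ^ 2 / r2 lq y) * lq i y = 0
        rw [h3]; ring
      change X z ^ 2 * Ef z ^ 2 ≤ ∑ i, (fderiv ℝ (f i : E → ℝ) z (α i) +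
        2 * (Ef z * (X z ^ 2 / r2 lq z) * lq i z * A i z)) + 2 * Dq α lq X z
      simp only [h1, hXoff z hz, hDoff z hz]
      simp
  have c2 : ∀ z, ∑ i, (f i : E → ℝ) z ^ 2 ≤ (g : E → ℝ) z * (ρ : E → ℝ) z := by
    intro z
    by_cases hz : z ∈ tsupport X
    · exact p_hf (x := X z) (e := Ef z) (q := fun i => lq i z) (hRp z hz) rfl
    · change ∑ i, (Ef z * (X z ^ 2 / r2 lq z) * lq i z) ^ 2 ≤
        X z ^ 2 * Ef z ^ 2 * (X z ^ 2 / r2 lq z)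
      simp [hXoff z hz]
  have c3 : ∀ z, 0 ≤ (e : E → ℝ) z := fun z => by
    have := hD0 z
    change 0 ≤ X z ^ 2 * Ef z ^ 2 + 32 / δ * Dq α lq X z
    positivity
  have c4 : ∀ z, 0 ≤ (om : E → ℝ) z := fun z => by change 0 ≤ X z ^ 2; positivity
  have c5 : ∀ z, 0 ≤ (g₂ : E → ℝ) z := fun z => by
    have := hD0 z
    change 0 ≤ 8 * Dq α lq X z + 8 * (X z ^ 2 / r2 lq z ^ 2)
    positivity
  have c6 : ∀ z, 0 ≤ (g₄ : E → ℝ) z := fun z => by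
    change 0 ≤ X z ^ 2 / (Ef z * r2 lq z) ^ 2
    positivity
  have c7 : ∀ z, 0 ≤ (g₅ : E → ℝ) z := fun z => by
    change 0 ≤ X z ^ 2 / (Ef z * r2 lq z) ^ 2 * (∑ i, fderiv ℝ (B i) z (α i)) ^ 2
    positivity
  have c8 : ∀ z, ∑ i, (ds (α i) ρ : E → ℝ) z ^ 2 ≤ (ρ : E → ℝ) z * (g₂ : E → ℝ) z := by
    intro z
    change ∑ i, fderiv ℝ (fun z => X z ^ 2 / r2 lq z) z (α i) ^ 2 ≤
      X z ^ 2 / r2 lq z * (8 * Dq α lq X z + 8 * (X z ^ 2 / r2 lq z ^ 2))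
    by_cases hz : z ∈ tsupport X
    · simp only [hdρ z hz]
      exact p_h2 (x := X z) (xi := fun i => fderiv ℝ X z (α i)) (q := fun i => lq i z)
        (hRp z hz) rfl
    · have h1 : ∀ i, fderiv ℝ (fun z => X z ^ 2 / r2 lq z) z (α i) = 0 := by
        intro i
        refine fderiv_off (fun h2 => hz ?_) _
        refine (closure_mono ?_) h2
        intro y hy
        simp only [Function.mem_support] at hy ⊢
        intro h3
        exact hy (by rw [h3]; ring)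
      simp [h1, hXoff z hz]
  have c9 : ∀ z, 4 * (g₂ : E → ℝ) z ≤ δ * (e : E → ℝ) z := by
    intro z
    change 4 * (8 * Dq α lq X z + 8 * (X z ^ 2 / r2 lq z ^ 2)) ≤
      δ * (X z ^ 2 * Ef z ^ 2 + 32 / δ * Dq α lq X z)
    by_cases hz : z ∈ tsupport X
    · exact p_h2e (hRp z hz) hδ hδ1 (hXt z hz)
    · rw [hXoff z hz, hDoff z hz]; simp
  have c10 : ∀ z, (ρ : E → ℝ) z ^ 2 ≤ δ ^ 2 * ((e : E → ℝ) z * (om : E → ℝ) z) := by
    intro z
    change (X z ^ 2 / r2 lq z) ^ 2 ≤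
      δ ^ 2 * ((X z ^ 2 * Ef z ^ 2 + 32 / δ * Dq α lq X z) * X z ^ 2)
    by_cases hz : z ∈ tsupport X
    · exact p_h3 (hRp z hz) hδ (hXt z hz) (hD0 z)
    · rw [hXoff z hz, hDoff z hz]; simp
  have c11 : ∀ z, (ρ : E → ℝ) z ^ 2 ≤ (e : E → ℝ) z * (g₄ : E → ℝ) z := by
    intro z
    change (X z ^ 2 / r2 lq z) ^ 2 ≤
      (X z ^ 2 * Ef z ^ 2 + 32 / δ * Dq α lq X z) * (X z ^ 2 / (Ef z * r2 lq z) ^ 2)
    by_cases hz : z ∈ tsupport X
    · exact p_h4 (hRp z hz) (hE0 z) hδ (hD0 z)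
    · rw [hXoff z hz, hDoff z hz]; simp
  have c12 : ∀ z, ((ρ : E → ℝ) z * ∑ i, (ds (α i) (v i) : E → ℝ) z) ^ 2 ≤
      (e : E → ℝ) z * (g₅ : E → ℝ) z := by
    intro z
    change (X z ^ 2 / r2 lq z * ∑ i, fderiv ℝ (B i) z (α i)) ^ 2 ≤
      (X z ^ 2 * Ef z ^ 2 + 32 / δ * Dq α lq X z) * (X z ^ 2 / (Ef z * r2 lq z) ^ 2 *
        (∑ i, fderiv ℝ (B i) z (α i)) ^ 2)
    by_cases hz : z ∈ tsupport X
    · exact p_h5 (hRp z hz) (hE0 z) hδ (hD0 z)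
    · rw [hXoff z hz, hDoff z hz]; simp
  have key := a34 μ α β w v f g h ρ e om g₂ g₄ g₅ β' γ' hδ hgz hρz c1 c2 c3 c4 c5 c6 c7 c8 c9
    c10 c11 c12
  -- translation
  have t1 : ip μ (ml g β') β' = ∫ z, X z ^ 2 * Ef z ^ 2 * b z ^ 2 ∂μ := by
    rw [ip_In]
    change ∫ z, _ ∂μ = _
    refine integral_congr_ae (Eventually.of_forall fun z => ?_)
    change X z ^ 2 * Ef z ^ 2 * b z * b z = _
    ring
  have t2 : ∑ i, ip μ (ml ρ (Yc (α i) (β i) (w i) (v i) β' γ'))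
      (Yc (α i) (β i) (w i) (v i) β' γ') =
      ∫ z, X z ^ 2 / r2 lq z * YY α β A B b c z ∂μ := by
    simp only [ip_In, ← map_sum]
    change ∫ z, _ ∂μ = _
    refine integral_congr_ae (Eventually.of_forall fun z => ?_)
    change (∑ i, mT (ml ρ (Yc (α i) (β i) (w i) (v i) β' γ'))
      (Yc (α i) (β i) (w i) (v i) β' γ')).fn z = _
    change _ = X z ^ 2 / r2 lq z * ∑ i, Yi α β A B b c i z ^ 2
    rw [sum_fn, Finset.mul_sum]
    refine Finset.sum_congr rfl fun i _ => ?_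
    change X z ^ 2 / r2 lq z * (2 * (-fderiv ℝ b z (α i) + A i z * b z) +
      (-fderiv ℝ c z (β i) + B i z * c z)) * (2 * (-fderiv ℝ b z (α i) + A i z * b z) +
      (-fderiv ℝ c z (β i) + B i z * c z)) = _
    unfold Yi
    ring
  have hR : (Rop α β w v γ').fn = Rf α β A B c := by
    funext z
    unfold Rop Rf
    rw [LinearMap.sum_apply, sum_fn]
    rfl
  have t3 : ip μ (ml om (Rop α β w v γ')) (Rop α β w v γ') =
      ∫ z, X z ^ 2 * Rf α β A B c z ^ 2 ∂μ := by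
    rw [ip_In]
    change ∫ z, _ ∂μ = _
    refine integral_congr_ae (Eventually.of_forall fun z => ?_)
    change X z ^ 2 * (Rop α β w v γ').fn z * (Rop α β w v γ').fn z = _
    rw [hR]; ring
  have hV : (∑ i, ml (v i) (Dp (α i) (w i) γ')).fn = Vf α A B c := by
    funext z
    rw [sum_fn]
    rfl
  have t4 : ip μ (ml g₄ (∑ i, ml (v i) (Dp (α i) (w i) γ')))
      (∑ i, ml (v i) (Dp (α i) (w i) γ')) =
      ∫ z, X z ^ 2 / (Ef z * r2 lq z) ^ 2 * Vf α A B c z ^ 2 ∂μ := by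
    rw [ip_In]
    change ∫ z, _ ∂μ = _
    refine integral_congr_ae (Eventually.of_forall fun z => ?_)
    change X z ^ 2 / (Ef z * r2 lq z) ^ 2 * (∑ i, ml (v i) (Dp (α i) (w i) γ')).fn z *
      (∑ i, ml (v i) (Dp (α i) (w i) γ')).fn z = _
    rw [hV]; ring
  have t5 : ip μ (ml g₅ γ') γ' = ∫ z, X z ^ 2 / (Ef z * r2 lq z) ^ 2 *
      (∑ i, fderiv ℝ (B i) z (α i)) ^ 2 * c z ^ 2 ∂μ := by
    rw [ip_In]
    change ∫ z, _ ∂μ = _
    refine integral_congr_ae (Eventually.of_forall fun z => ?_)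
    change X z ^ 2 / (Ef z * r2 lq z) ^ 2 *
      (∑ i, fderiv ℝ (B i) z (α i)) ^ 2 * c z * c z = _
    ring
  have tD : ip μ (ml (⟨_, hDc⟩ : Sm E) β') β' = ∫ z, Dq α lq X z * b z ^ 2 ∂μ := by
    rw [ip_In]
    change ∫ z, _ ∂μ = _
    refine integral_congr_ae (Eventually.of_forall fun z => ?_)
    change Dq α lq X z * b z * b z = _
    ring
  have t6 : ip μ (ml h β') β' = 2 * ∫ z, Dq α lq X z * b z ^ 2 ∂μ := by
    rw [← tD, ip_In, ip_In, ← smul_eq_mul, ← map_smul]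
    congr 1
    ext z
    change 2 * Dq α lq X z * b z * b z = 2 * (Dq α lq X z * b z * b z)
    ring
  have t7 : ip μ (ml e β') β' = (∫ z, X z ^ 2 * Ef z ^ 2 * b z ^ 2 ∂μ) +
      32 / δ * ∫ z, Dq α lq X z * b z ^ 2 ∂μ := by
    rw [← tD, ← t1, ip_In, ip_In, ip_In, ← smul_eq_mul, ← map_smul, ← map_add]
    congr 1
    ext z
    change (X z ^ 2 * Ef z ^ 2 + 32 / δ * Dq α lq X z) * b z * b z =
      X z ^ 2 * Ef z ^ 2 * b z * b z + 32 / δ * (Dq α lq X z * b z * b z)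
    ring
  rw [t1, t2, t3, t4, t5, t6, t7] at key
  set I0 := ∫ z, X z ^ 2 * Ef z ^ 2 * b z ^ 2 ∂μ with hI0
  set ID := ∫ z, Dq α lq X z * b z ^ 2 ∂μ with hID
  have hI00 : 0 ≤ I0 := integral_nonneg fun z => by
    change 0 ≤ X z ^ 2 * Ef z ^ 2 * b z ^ 2
    positivity
  have k1 : 16 * δ * (I0 + 32 / δ * ID) = 16 * δ * I0 + 512 * ID := by
    field_simp
    ring
  have k2 : 16 * δ * I0 ≤ 1 / 2 * I0 := mul_le_mul_of_nonneg_right (by linarith) hI00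
  rw [k1] at key
  have k3 : 32 / δ = 2 * (16 / δ) := by ring
  rw [k3]
  linarith

end Vale.Agent.P088.R2.H591.C
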