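import Vale.Agent.P088.R2.H591.C.AB6

/-!
# P088, stage 3, zone C: the row AB for the weight `φ(u) + e^u Φ(r²)`
-/

open MeasureTheory Set Filter
open scoped ContDiff Topology

noncomputable section

namespace Vale.Agent.P088.R2.H591.C

open Vale.Agent.P088.LR Vale.Agent.P088.HY
open Vale.Agent.P088.R2.H961.GW
open Vale.Agent.P088.R2.H644 Vale.Agent.P088.R2.H644.Ch
open Vale.Agent.P088.R2.H205.C

variable {n : ℕ}

/-- Derivatives of a function of the height. -/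
theorem HD_F {v z : VV n} {e : Fin n} {F : ℝ → ℝ} {F' : ℝ} (h : HasDerivAt F F' (ht e z)) :
    HD v (fun z => F (ht e z)) (F' * (v.1 e + v.2 e)) z :=
  HD.comp h ((HD.fst v z e).add (HD.snd v z e))

theorem HD_E (v z : VV n) (e : Fin n) :
    HD v (Ee e 1) (Ee e 1 z * (v.1 e + v.2 e)) z := by
  have h := HD.Ee v z e 1
  rwa [one_mul] at h

theorem HD_Wu {v z : VV n} {e : Fin n} {φ φ₁ Φ Φ₁ : ℝ → ℝ} (h1 : HasDerivAt φ (φ₁ (ht e z)) (ht e z))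
    (h2 : HasDerivAt Φ (Φ₁ (qq z)) (qq z)) :
    HD v (Wu e φ Φ) (φ₁ (ht e z) * (v.1 e + v.2 e) + (Ee e 1 z * (v.1 e + v.2 e) * Φ (qq z) +
      Ee e 1 z * (Φ₁ (qq z) * dd v qq z))) z :=
  (HD_F h1).add ((HD_E v z e).mul (HD.rad h2))

theorem cd_ht (e : Fin n) : ContDiff ℝ ∞ (ht e : VV n → ℝ) :=
  (contDiff_fst' e).add (contDiff_snd' e)

theorem dd_eq' (i : Fin n) (z : VV n) : dd (eq' i) qq z = 2 * qv i z := by
  rw [show dd (eq' i) qq z = dq i qq z from fd_q i qq z]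
  unfold dq
  rw [dx_qq, dy_qq]
  ring

theorem dd_ep (i : Fin n) (z : VV n) : dd (ep i) qq z = 0 := by
  rw [show dd (ep i) qq z = dp i qq z from fd_p i qq z]
  unfold dp
  rw [dx_qq, dy_qq]
  ring

theorem ex_e (i e : Fin n) : (ex i : VV n).1 e + (ex i : VV n).2 e = if i = e then 1 else 0 := by
  simp only [ex, Pi.single_apply, Pi.zero_apply, add_zero, eq_comm]

theorem ey_e (i e : Fin n) : (ey i : VV n).1 e + (ey i : VV n).2 e = if i = e then 1 else 0 := by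
  simp only [ey, Pi.single_apply, Pi.zero_apply, zero_add, eq_comm]

theorem eq_e (i e : Fin n) : (eq' i : VV n).1 e + (eq' i : VV n).2 e = 0 := by
  simp only [eq', ex, ey, Prod.smul_fst, Prod.smul_snd, Prod.fst_sub, Prod.snd_sub, sub_zero,
    zero_sub, Pi.smul_apply, Pi.neg_apply, smul_eq_mul]
  ring

theorem ep_e (i e : Fin n) : (ep i : VV n).1 e + (ep i : VV n).2 e = 2 * if i = e then 1 else 0 := by
  have h : (ep i : VV n).1 e + (ep i : VV n).2 e =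
    ((ex i : VV n).1 e + (ex i : VV n).2 e) + ((ey i : VV n).1 e + (ey i : VV n).2 e) := by
    simp only [ep, Prod.fst_add, Prod.snd_add, Pi.add_apply]
    ring
  rw [h, ex_e, ey_e]
  ring

section wu

variable {e : Fin n} {φ φ₁ φ₂ φ₃ Φ Φ₁ Φ₂ : ℝ → ℝ}

theorem dx_Wu (h1 : ∀ s, HasDerivAt φ (φ₁ s) s) (h2 : ∀ s, HasDerivAt Φ (Φ₁ s) s) (i : Fin n)
    (z : VV n) : dx i (Wu e φ Φ) z = (φ₁ (ht e z) + Ee e 1 z * Φ (qq z)) * (if i = e then 1 else 0) +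
      2 * Ee e 1 z * Φ₁ (qq z) * qv i z := by
  have h := (HD_Wu (v := ex i) (z := z) (e := e) (h1 _) (h2 _)).e
  rw [show dx i (Wu e φ Φ) z = dd (ex i) (Wu e φ Φ) z from rfl, h, ex_e,
    show dd (ex i) qq z = dx i qq z from rfl, dx_qq]
  ring

theorem dy_Wu (h1 : ∀ s, HasDerivAt φ (φ₁ s) s) (h2 : ∀ s, HasDerivAt Φ (Φ₁ s) s) (i : Fin n)
    (z : VV n) : dy i (Wu e φ Φ) z = (φ₁ (ht e z) + Ee e 1 z * Φ (qq z)) * (if i = e then 1 else 0) -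
      2 * Ee e 1 z * Φ₁ (qq z) * qv i z := by
  have h := (HD_Wu (v := ey i) (z := z) (e := e) (h1 _) (h2 _)).e
  rw [show dy i (Wu e φ Φ) z = dd (ey i) (Wu e φ Φ) z from rfl, h, ey_e,
    show dd (ey i) qq z = dy i qq z from rfl, dy_qq]
  ring

theorem dq_Wu (h1 : ∀ s, HasDerivAt φ (φ₁ s) s) (h2 : ∀ s, HasDerivAt Φ (Φ₁ s) s) (i : Fin n)
    (z : VV n) : dq i (Wu e φ Φ) z = 2 * Ee e 1 z * Φ₁ (qq z) * qv i z := by
  unfold dq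
  rw [dx_Wu h1 h2, dy_Wu h1 h2]
  ring

theorem dp_Wu (h1 : ∀ s, HasDerivAt φ (φ₁ s) s) (h2 : ∀ s, HasDerivAt Φ (Φ₁ s) s) (i : Fin n)
    (z : VV n) : dp i (Wu e φ Φ) z =
      (if i = e then 2 else 0) * (φ₁ (ht e z) + Ee e 1 z * Φ (qq z)) := by
  unfold dp
  rw [dx_Wu h1 h2, dy_Wu h1 h2]
  split_ifs <;> ring

theorem dqdp_Wu (h1 : ∀ s, HasDerivAt φ (φ₁ s) s) (h1' : ∀ s, HasDerivAt φ₁ (φ₂ s) s)
    (h2 : ∀ s, HasDerivAt Φ (Φ₁ s) s) (i : Fin n)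
    (z : VV n) : dq i (dp i (Wu e φ Φ)) z =
      (if i = e then 2 else 0) * (2 * Ee e 1 z * Φ₁ (qq z) * qv i z) := by
  have e1 : dp i (Wu e φ Φ) = fun z => (if i = e then (2 : ℝ) else 0) * Wu e φ₁ Φ z := by
    funext z
    rw [dp_Wu h1 h2]
    rfl
  have e2 : dd (eq' i) (Wu e φ₁ Φ) z = dq i (Wu e φ₁ Φ) z := fd_q i _ z
  rw [e1, show dq i (fun z => (if i = e then (2 : ℝ) else 0) * Wu e φ₁ Φ z) z =
    dd (eq' i) (fun z => (if i = e then (2 : ℝ) else 0) * Wu e φ₁ Φ z) z from (fd_q i _ z).symm,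
    dd_const_mul, e2, dq_Wu h1' h2]

end wu

/-- `∑ (a δ_ie + b q_i)² ≤ 2 a² + 2 b² r²`. -/
theorem sum_ab (e : Fin n) (a b : ℝ) (z : VV n) :
    ∑ i, (a * (if i = e then 1 else 0) + b * qv i z) ^ 2 ≤ 2 * a ^ 2 + 2 * b ^ 2 * qq z := by
  have h1 : ∀ i : Fin n, (a * (if i = e then 1 else 0) + b * qv i z) ^ 2 ≤
      (if i = e then 2 * a ^ 2 else 0) + 2 * b ^ 2 * qv i z ^ 2 := by
    intro i
    split_ifs
    · nlinarith [sq_nonneg (a - b * qv i z)]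
    · nlinarith [sq_nonneg (b * qv i z)]
  refine (Finset.sum_le_sum fun i _ => h1 i).trans ?_
  rw [Finset.sum_add_distrib, Finset.sum_ite_eq', if_pos (Finset.mem_univ e), ← Finset.mul_sum,
    ← qq_eq]

section sca

variable {N K E P P1 q Cs Cd C0 C₁ K0 K' a₁ qe : ℝ}

theorem hz1 (hCs : 0 < Cs) (h : |P1 - 1 / 2| ≤ Cs * q) (hq : q ≤ 1) : P1 ^ 2 ≤ (2 + Cs) ^ 2 := by
  have b1 := abs_le.1 h
  have h1 : Cs * q ≤ Cs := by nlinarith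
  have l1 : -(2 + Cs) ≤ P1 := by linarith [b1.1]
  have l2 : P1 ≤ 2 + Cs := by linarith [b1.2]
  nlinarith

theorem hz2 (hE : 0 < E) (hq0 : 0 ≤ q) (hq1 : q ≤ 1) (p0 : 0 ≤ P) (p1 : P ≤ q) :
    (N + E * P) ^ 2 ≤ 2 * (N ^ 2 + E * (E * q)) := by
  have h1 : (E * P) ^ 2 ≤ E * (E * q) := by
    calc (E * P) ^ 2 ≤ (E * q) ^ 2 :=
          pow_le_pow_left₀ (by positivity) (mul_le_mul_of_nonneg_left p1 hE.le) 2
      _ = E * (E * q) * q := by ring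
      _ ≤ E * (E * q) * 1 := mul_le_mul_of_nonneg_left hq1 (by positivity)
      _ = E * (E * q) := by ring
  nlinarith [sq_nonneg (N - E * P)]

theorem hz3 (hE : 0 < E) (hq0 : 0 ≤ q) (hNE : (N + E * P) ^ 2 ≤ 2 * (N ^ 2 + E * (E * q)))
    (hP1 : P1 ^ 2 ≤ (2 + Cs) ^ 2) (hC0 : 4 + 8 * (2 + Cs) ^ 2 ≤ C0) :
    2 * (N + E * P) ^ 2 + 2 * (2 * E * P1) ^ 2 * q ≤ C0 * (N ^ 2 + E * (E * q)) := by
  have hEE : 0 ≤ E * (E * q) := by positivity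
  have h1 : 2 * (2 * E * P1) ^ 2 * q = 8 * P1 ^ 2 * (E * (E * q)) := by ring
  rw [h1]
  have h2 := mul_le_mul_of_nonneg_right hP1 hEE
  have h4 := mul_le_mul_of_nonneg_right hC0 (by positivity : 0 ≤ N ^ 2 + E * (E * q))
  have h5 : 0 ≤ (2 + Cs) ^ 2 * N ^ 2 := by positivity
  linarith

theorem hz4 (hK : 0 < K) (hKN : K ≤ N) (hC0 : 1 ≤ C0) : K ^ 2 ≤ C0 * N ^ 2 := by
  have : K ^ 2 ≤ N ^ 2 := pow_le_pow_left₀ hK.le hKN 2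
  nlinarith [sq_nonneg N]

theorem hz5 (hkd : |K'| ≤ Cd * K) (h2 : Cd ^ 2 ≤ C0) : K' ^ 2 ≤ C0 * K ^ 2 := by
  have h1 : K' ^ 2 ≤ (Cd * K) ^ 2 := by
    rw [← sq_abs]
    exact pow_le_pow_left₀ (abs_nonneg _) hkd 2
  have h3 := mul_le_mul_of_nonneg_right h2 (sq_nonneg K)
  nlinarith

theorem hz6 (hK : 0 < K) (hK0 : 1 ≤ K0) (hC1 : K0 ^ 2 ≤ C₁) (hE : C₁ ≤ E)
    (h2 : C₁ * E ≤ K ^ 3) : K0 ≤ K := by
  have hC10 : 0 ≤ C₁ := le_trans (by positivity) hC1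
  by_contra hc
  push Not at hc
  have h3 : K ^ 3 < K0 ^ 3 := pow_lt_pow_left₀ hc hK.le (by norm_num)
  have h4 : C₁ * C₁ ≤ C₁ * E := mul_le_mul_of_nonneg_left hE hC10
  have h5 : K0 ^ 2 * K0 ^ 2 ≤ C₁ * C₁ := mul_le_mul hC1 hC1 (by positivity) hC10
  have h6 : K0 ^ 3 ≤ K0 ^ 2 * K0 ^ 2 := by
    have : K0 ^ 2 * K0 ^ 2 = K0 ^ 3 * K0 := by ring
    rw [this]
    exact le_mul_of_one_le_right (by positivity) hK0
  linarith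

theorem hz7 (hC0 : 4 ≤ C0) (hN : 0 ≤ N) (hE : 0 < E) (p0 : 0 ≤ P) (p1 : P ≤ q) :
    4 * (N + E * P) ^ 2 ≤ C0 * (N + E * q) ^ 2 := by
  have h0 : 0 ≤ E * P := by positivity
  have h2 : (N + E * P) ^ 2 ≤ (N + E * q) ^ 2 :=
    pow_le_pow_left₀ (by positivity) (by linarith [mul_le_mul_of_nonneg_left p1 hE.le]) 2
  nlinarith [sq_nonneg (N + E * q)]

theorem hz8 (hE : 0 < E) (hq0 : 0 ≤ q) (hP1 : P1 ^ 2 ≤ (2 + Cs) ^ 2) (h7 : 16 * (2 + Cs) ^ 2 ≤ C0)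
    (h2 : qe ^ 2 ≤ q) : (4 * E * P1 * qe) ^ 2 ≤ C0 * (K ^ 2 + E * (E * q)) := by
  have hEE : 0 ≤ E * (E * q) := by positivity
  have h3 : (4 * E * P1 * qe) ^ 2 = 16 * P1 ^ 2 * (E ^ 2 * qe ^ 2) := by ring
  rw [h3]
  have h4 : E ^ 2 * qe ^ 2 ≤ E * (E * q) := by
    have := mul_le_mul_of_nonneg_left h2 (sq_nonneg E)
    linarith
  have h5 : 16 * P1 ^ 2 * (E ^ 2 * qe ^ 2) ≤ 16 * (2 + Cs) ^ 2 * (E * (E * q)) := by
    have h6 : 16 * P1 ^ 2 ≤ 16 * (2 + Cs) ^ 2 := by linarith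
    exact mul_le_mul h6 h4 (by positivity) (by positivity)
  have h8 := mul_le_mul_of_nonneg_right h7 hEE
  have h9 : 0 ≤ C0 * K ^ 2 := mul_nonneg (le_trans (by positivity) h7) (sq_nonneg K)
  linarith

end sca

section sums

variable {e : Fin n} {φ φ₁ φ₂ Φ Φ₁ : ℝ → ℝ} {z : VV n}

theorem su1 (a : ℝ) (e : Fin n) : ∑ i : Fin n, (a * if i = e then 1 else 0) ^ 2 = a ^ 2 := by
  simp

theorem su2 (h1 : ∀ s, HasDerivAt φ (φ₁ s) s) (h2 : ∀ s, HasDerivAt Φ (Φ₁ s) s) :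
    ∑ i, dq i (Wu e φ Φ) z * qv i z = 2 * Ee e 1 z * Φ₁ (qq z) * qq z := by
  have h : ∀ i, dq i (Wu e φ Φ) z * qv i z = 2 * Ee e 1 z * Φ₁ (qq z) * qv i z ^ 2 := by
    intro i
    rw [dq_Wu h1 h2]
    ring
  simp only [h]
  rw [← Finset.mul_sum, ← qq_eq]

theorem su3 (h1 : ∀ s, HasDerivAt φ (φ₁ s) s) (h2 : ∀ s, HasDerivAt Φ (Φ₁ s) s) :
    ∑ i, dp i (Wu e φ Φ) z ^ 2 = 4 * (φ₁ (ht e z) + Ee e 1 z * Φ (qq z)) ^ 2 := by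
  simp only [dp_Wu h1 h2]
  rw [Finset.sum_eq_single e]
  · simp only [if_true]; ring
  · intro b _ hb; simp [hb]
  · intro h; exact absurd (Finset.mem_univ e) h

theorem su4 (h1 : ∀ s, HasDerivAt φ (φ₁ s) s) (h1' : ∀ s, HasDerivAt φ₁ (φ₂ s) s)
    (h2 : ∀ s, HasDerivAt Φ (Φ₁ s) s) :
    ∑ i, dq i (dp i (Wu e φ Φ)) z = 4 * Ee e 1 z * Φ₁ (qq z) * qv e z := by
  simp only [dqdp_Wu h1 h1' h2]
  rw [Finset.sum_eq_single e]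
  · simp only [if_true]; ring
  · intro b _ hb; simp [hb]
  · intro h; exact absurd (Finset.mem_univ e) h

theorem su5 : qv e z ^ 2 ≤ qq z := by
  rw [qq_eq]
  exact Finset.single_le_sum (f := fun i => qv i z ^ 2) (fun _ _ => sq_nonneg _)
    (Finset.mem_univ e)

theorem su6 (h1 : ∀ s, HasDerivAt φ (φ₁ s) s) (h2 : ∀ s, HasDerivAt Φ (Φ₁ s) s) :
    ∑ i, dx i (Wu e φ Φ) z ^ 2 ≤ 2 * (φ₁ (ht e z) + Ee e 1 z * Φ (qq z)) ^ 2 +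
      2 * (2 * Ee e 1 z * Φ₁ (qq z)) ^ 2 * qq z := by
  simp only [dx_Wu h1 h2]
  exact sum_ab e _ _ z

theorem su7 (h1 : ∀ s, HasDerivAt φ (φ₁ s) s) (h2 : ∀ s, HasDerivAt Φ (Φ₁ s) s) :
    ∑ i, dy i (Wu e φ Φ) z ^ 2 ≤ 2 * (φ₁ (ht e z) + Ee e 1 z * Φ (qq z)) ^ 2 +
      2 * (2 * Ee e 1 z * Φ₁ (qq z)) ^ 2 * qq z := by
  simp only [dy_Wu h1 h2]
  have h := sum_ab e (φ₁ (ht e z) + Ee e 1 z * Φ (qq z)) (-(2 * Ee e 1 z * Φ₁ (qq z))) z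
  rw [neg_sq] at h
  refine le_trans (le_of_eq ?_) h
  refine Finset.sum_congr rfl fun i _ => ?_
  congr 1
  ring

theorem su8 {F F₁ : ℝ → ℝ} (h : ∀ s, HasDerivAt F (F₁ s) s) :
    ∑ i, dx i (fun z => F (ht e z)) z ^ 2 = F₁ (ht e z) ^ 2 := by
  have h0 : ∀ i : Fin n, dx i (fun z => F (ht e z)) z = F₁ (ht e z) * if i = e then 1 else 0 :=
    fun i => by
      rw [← ex_e]
      exact (HD_F (v := ex i) (z := z) (e := e) (h _)).e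
  simp only [h0]
  exact su1 _ _

theorem su9 {F F₁ : ℝ → ℝ} (h : ∀ s, HasDerivAt F (F₁ s) s) :
    ∑ i, dy i (fun z => F (ht e z)) z ^ 2 = F₁ (ht e z) ^ 2 := by
  have h0 : ∀ i : Fin n, dy i (fun z => F (ht e z)) z = F₁ (ht e z) * if i = e then 1 else 0 :=
    fun i => by
      rw [← ey_e]
      exact (HD_F (v := ey i) (z := z) (e := e) (h _)).e
  simp only [h0]
  exact su1 _ _

end sums

/-- The pointwise hypotheses for `W`. -/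
theorem hz_Wu {Cs Cd c₀ a₁ C₁ σ cl C0 K0 : ℝ} (hCs : 0 < Cs)
    (hc : 32 * Cs * c₀ ^ 2 ≤ 1) (hc1 : 4 * c₀ ^ 2 ≤ 1) (ha : a₁ ≤ 1) (hK0 : 1 ≤ K0)
    (hC1 : K0 ^ 2 ≤ C₁)
    (hC0 : 16 * (2 + Cs) ^ 2 + Cd ^ 2 ≤ C0)
    {e : Fin n} {Φ Φ₁ Φ₂ Φ₃ Φ₄ φ φ₁ φ₂ φ₃ φ₄ : ℝ → ℝ} {I : Set ℝ}
    (pf : Pf Cs Φ Φ₁ Φ₂ Φ₃ Φ₄) (sp : Sp Cd φ φ₁ φ₂ φ₃ φ₄ I) {z : VV n}
    (hz : z ∈ Zc e c₀ a₁ C₁ σ φ₁ φ₂ I) (hcl : cl * φ₂ (ht e z) ≤ tt e z) :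
    Hz C0 cl K0 (Wu e φ Φ) (fun z => φ₁ (ht e z)) (fun z => φ₂ (ht e z)) (Ee e 1) z := by
  obtain ⟨⟨hI, hq⟩, hG⟩ := hz
  have hN := sp.np _ hI
  have hK := sp.kp _ hI
  have hKN := sp.kn _ hI
  have hkd := (sp.kd _ hI).1
  have hE : 0 < Ee e 1 z := Ee_pos e 1 z
  have hq0 : 0 ≤ qq z := qq_nonneg z
  have hq1 : qq z ≤ 1 := hq.trans hc1
  have b1 := pf.b1 _ hq0 hq1
  have ps := pf.ps _ hq0 hq1
  have hCq : Cs * qq z ≤ 1 / 8 := by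
    have := mul_le_mul_of_nonneg_left hq hCs.le
    linarith
  have q2 : 4 ≤ (2 + Cs) ^ 2 := by nlinarith
  have q3 : 0 ≤ Cd ^ 2 := sq_nonneg _
  have hP1 := hz1 hCs b1 hq1
  have hNE := hz2 (N := φ₁ (ht e z)) hE hq0 hq1 ps.1 ps.2
  have hw := hz3 (C0 := C0) hE hq0 hNE hP1 (by linarith)
  refine ⟨⟨?_, ?_, ?_, hE, hcl⟩, ?_, ?_, ?_, ?_, ?_, ?_, ?_, ?_, ?_⟩
  · refine hz6 hK hK0 hC1 ?_ hG.k3
    have h1 := hG.n0
    have h2 := hG.nu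
    have h3 : a₁ * Ee e 1 z ≤ 1 * Ee e 1 z := mul_le_mul_of_nonneg_right ha hE.le
    linarith
  · have h1 : 1 * φ₁ (ht e z) ≤ C0 * φ₁ (ht e z) :=
      mul_le_mul_of_nonneg_right (by linarith) hN.le
    linarith
  · have h3 : K0 ≤ C₁ := by nlinarith
    exact (mul_le_mul_of_nonneg_right h3 (sq_nonneg _)).trans hG.k2
  · rw [su8 sp.d2]; exact hz4 hK hKN (by linarith)
  · rw [su9 sp.d2]; exact hz4 hK hKN (by linarith)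
  · rw [su8 sp.d3]; exact hz5 hkd (by linarith)
  · rw [su9 sp.d3]; exact hz5 hkd (by linarith)
  · rw [su2 sp.d1 pf.d1]
    have h2 : 3 / 4 ≤ 2 * Φ₁ (qq z) := by linarith [(abs_le.1 b1).1]
    have h3 := mul_le_mul_of_nonneg_right h2 (mul_nonneg hE.le hq0)
    linarith
  · exact (su6 sp.d1 pf.d1).trans hw
  · exact (su7 sp.d1 pf.d1).trans hw
  · rw [su3 sp.d1 pf.d1]
    exact hz7 (by linarith) hN.le hE ps.1 ps.2
  · rw [su4 sp.d1 sp.d2 pf.d1]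
    exact hz8 hE hq0 hP1 (by linarith) su5

/-- **The row AB.** -/
theorem rowAB : RowAB := by
  intro n hn Cs Cd σ cl ε hCs hCd hσ hcl hε
  have hC0 : 1 ≤ 16 * (2 + Cs) ^ 2 + Cd ^ 2 := by nlinarith [sq_nonneg Cd]
  obtain ⟨δ, c4, K0, k⟩ := ks_ex hC0 hcl hε
  have hc4 : 0 < c4 := by rw [k.cc]; have := k.c0; have := k.d; positivity
  -- the size of the region
  obtain ⟨c₀, h0, h1, h2⟩ : ∃ c₀ : ℝ, 0 < c₀ ∧ 32 * Cs * c₀ ^ 2 ≤ 1 ∧ 4 * c₀ ^ 2 ≤ 1 := by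
    refine ⟨1 / (2 + 32 * Cs), by positivity, ?_, ?_⟩
    · rw [div_pow, one_pow, mul_one_div, div_le_one (by positivity)]
      nlinarith
    · rw [div_pow, one_pow, mul_one_div, div_le_one (by positivity)]
      nlinarith
  refine ⟨c₀, 1, K0 ^ 2, 32 * c4 * ((16 * (2 + Cs) ^ 2 + Cd ^ 2) ^ 2 + 1 / cl ^ 2) + 516 / cl,
    h0, one_pos, by have := k.k1; positivity, by positivity, ?_⟩
  intro e Φ Φ₁ Φ₂ Φ₃ Φ₄ φ φ₁ φ₂ φ₃ φ₄ I χ f g D ht'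
  have sφ₁ : ContDiff ℝ ∞ φ₁ := by
    have : φ₁ = deriv φ := funext fun s => (D.sp.d1 s).deriv.symm
    rw [this]
    exact (contDiff_infty_iff_deriv.1 D.sp.sm).2
  have sφ₂ : ContDiff ℝ ∞ φ₂ := by
    have : φ₂ = deriv φ₁ := funext fun s => (D.sp.d2 s).deriv.symm
    rw [this]
    exact (contDiff_infty_iff_deriv.1 sφ₁).2
  have hW : ContDiff ℝ ∞ (Wu e φ Φ) :=
    (D.sp.sm.comp (cd_ht e)).add ((contDiff_Ee e 1).mul (contDiff_rad D.pf.sm))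
  exact ab_gen hn k hW (sφ₁.comp (cd_ht e)) (sφ₂.comp (cd_ht e)) (contDiff_Ee e 1) D.cχ
    (Ee_pos e 1) (fun z i => by
      have h := (HD_E (eq' i) z e).e
      rw [eq_e, mul_zero] at h
      rw [← h]
      exact (fd_q i _ z).symm) D.tf D.tg
    (fun z hz => hz_Wu hCs h1 h2 le_rfl k.k1 le_rfl le_rfl D.pf D.sp (D.sχ hz) (ht' z hz))

end Vale.Agent.P088.R2.H591.C
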