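import Vale.Agent.P088.R2.H205.C.Spec
import Vale.Agent.P088.R2.H591.C.A34I

/-!
# P088, stage 3, zone C: the row AB, part 1: calculus in the frames
-/

open MeasureTheory Set Filter
open scoped ContDiff Topology

noncomputable section

namespace Vale.Agent.P088.R2.H591.C

open Vale.Agent.P088.LR Vale.Agent.P088.HY
open Vale.Agent.P088.R2.H961.GW
open Vale.Agent.P088.R2.H644 Vale.Agent.P088.R2.H644.Ch
open Vale.Agent.P088.R2.H205.C
open Vale.Agent.P088.R2.H960.C (YY Yi Ts r2)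

variable {n : ℕ}

/-- The directions. -/
def ex (i : Fin n) : VV n := (Pi.single i 1, 0)

def ey (i : Fin n) : VV n := (0, Pi.single i 1)

def eq' (i : Fin n) : VV n := (1 / 2 : ℝ) • (ex i - ey i)

def ep (i : Fin n) : VV n := ex i + ey i

/-- The linear forms `q_i`. -/
def lq (i : Fin n) : VV n →L[ℝ] ℝ :=
  (ContinuousLinearMap.proj i).comp (ContinuousLinearMap.fst ℝ (V n) (V n)) -
    (ContinuousLinearMap.proj i).comp (ContinuousLinearMap.snd ℝ (V n) (V n))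

theorem lq_ap (i : Fin n) (z : VV n) : lq i z = qv i z := rfl

theorem lq_eq (i j : Fin n) : lq i (eq' j) = if i = j then 1 else 0 := by
  rw [lq_ap]
  simp only [qv, eq', ex, ey, Prod.smul_fst, Prod.smul_snd, Prod.fst_sub, Prod.snd_sub, sub_zero,
    zero_sub, Pi.smul_apply, Pi.neg_apply, Pi.single_apply, smul_eq_mul]
  split_ifs <;> norm_num

theorem r2_lq (z : VV n) : r2 lq z = qq z := rfl

theorem fd_x (i : Fin n) (f : VV n → ℝ) (z : VV n) : fderiv ℝ f z (ex i) = dx i f z := rfl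

theorem fd_y (i : Fin n) (f : VV n → ℝ) (z : VV n) : fderiv ℝ f z (ey i) = dy i f z := rfl

theorem fd_q (i : Fin n) (f : VV n → ℝ) (z : VV n) : fderiv ℝ f z (eq' i) = dq i f z := by
  unfold eq' dq
  rw [map_smul, map_sub, fd_x, fd_y, smul_eq_mul]
  ring

theorem fd_p (i : Fin n) (f : VV n → ℝ) (z : VV n) : fderiv ℝ f z (ep i) = dp i f z := by
  unfold ep dp
  rw [map_add, fd_x, fd_y]

/-- The dressed derivative. -/
def Xd (v : VV n) (W f : VV n → ℝ) (z : VV n) : ℝ := fderiv ℝ f z v + fderiv ℝ W z v * f z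

/-- Second derivative. -/
def H2 (f : VV n → ℝ) (v w : VV n) (z : VV n) : ℝ := fderiv ℝ (fun z => fderiv ℝ f z w) z v

section

variable {W f g : VV n → ℝ} {z : VV n}

theorem H2_eq (hf : ContDiff ℝ ∞ f) (v w z : VV n) : H2 f v w z = fderiv ℝ (fderiv ℝ f) z v w := by
  unfold H2
  have h1 : DifferentiableAt ℝ (fderiv ℝ f) z :=
    ((hf.fderiv_right (m := ∞) (by simp)).differentiable (by simp)) z
  rw [fderiv_clm_apply h1 (differentiableAt_const w)]
  simp

theorem H2_symm (hf : ContDiff ℝ ∞ f) (v w z : VV n) : H2 f v w z = H2 f w v z := by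
  rw [H2_eq hf, H2_eq hf]
  have h : IsSymmSndFDerivAt ℝ f z :=
    (hf.contDiffAt (x := z)).isSymmSndFDerivAt (by
      rw [minSmoothness_of_isRCLikeNormedField]
      exact WithTop.coe_le_coe.2 le_top)
  exact h v w

theorem H2_add_l (hf : ContDiff ℝ ∞ f) (v v' w z : VV n) :
    H2 f (v + v') w z = H2 f v w z + H2 f v' w z := by
  simp only [H2_eq hf, map_add, _root_.add_apply]

theorem H2_sub_l (hf : ContDiff ℝ ∞ f) (v v' w z : VV n) :
    H2 f (v - v') w z = H2 f v w z - H2 f v' w z := by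
  simp only [H2_eq hf, map_sub, _root_.sub_apply]

theorem H2_smul_l (hf : ContDiff ℝ ∞ f) (a : ℝ) (v w z : VV n) :
    H2 f (a • v) w z = a * H2 f v w z := by
  simp only [H2_eq hf, map_smul, _root_.smul_apply, smul_eq_mul]

theorem H2_add_r (hf : ContDiff ℝ ∞ f) (v w w' z : VV n) :
    H2 f v (w + w') z = H2 f v w z + H2 f v w' z := by
  simp only [H2_eq hf, map_add]

theorem fd_cd (hf : ContDiff ℝ ∞ f) (v : VV n) : ContDiff ℝ ∞ fun z => fderiv ℝ f z v :=
  (hf.fderiv_right (m := ∞) (by simp)).clm_apply contDiff_const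

theorem Xd_cd (hW : ContDiff ℝ ∞ W) (hf : ContDiff ℝ ∞ f) (v : VV n) : ContDiff ℝ ∞ (Xd v W f) :=
  (fd_cd hf v).add ((fd_cd hW v).mul hf)

theorem fd_Xd (hW : ContDiff ℝ ∞ W) (hf : ContDiff ℝ ∞ f) (v w z : VV n) :
    fderiv ℝ (Xd w W f) z v =
      H2 f v w z + H2 W v w z * f z + fderiv ℝ W z w * fderiv ℝ f z v := by
  have d1 : DifferentiableAt ℝ (fun z => fderiv ℝ f z w) z :=
    ((fd_cd hf w).differentiable (by simp)) z
  have d2 : DifferentiableAt ℝ (fun z => fderiv ℝ W z w) z :=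
    ((fd_cd hW w).differentiable (by simp)) z
  have d3 : DifferentiableAt ℝ f z := (hf.differentiable (by simp)) z
  have h : Xd w W f = fun z => fderiv ℝ f z w + fderiv ℝ W z w * f z := rfl
  rw [h, fderiv_fun_add d1 (d2.fun_mul d3), fderiv_fun_mul d2 d3]
  simp only [_root_.add_apply, _root_.smul_apply, smul_eq_mul, H2]
  ring

theorem Xd_Xd (hW : ContDiff ℝ ∞ W) (hf : ContDiff ℝ ∞ f) (v w z : VV n) :
    Xd v W (Xd w W f) z = H2 f v w z + H2 W v w z * f z + fderiv ℝ W z w * fderiv ℝ f z v +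
      fderiv ℝ W z v * (fderiv ℝ f z w + fderiv ℝ W z w * f z) := by
  have h : Xd v W (Xd w W f) z = fderiv ℝ (Xd w W f) z v + fderiv ℝ W z v * Xd w W f z := rfl
  rw [h, fd_Xd hW hf]
  rfl

theorem P_x (hW : ContDiff ℝ ∞ W) (hf : ContDiff ℝ ∞ f) (z : VV n) :
    (fx n).P (fun _ => 0) W f z = ∑ i, Xd (ex i) W (Xd (ex i) W f) z := by
  unfold Sl.P Sl.K Sl.F
  rw [fx_Λ, fx_Λ, fx_Γ, fx_Γ]
  simp only [Xd_Xd hW hf]
  rw [zero_mul, add_zero, Finset.mul_sum, Finset.sum_mul, Finset.sum_mul, ← Finset.sum_add_distrib,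
    ← Finset.sum_add_distrib, ← Finset.sum_add_distrib]
  refine Finset.sum_congr rfl fun i _ => ?_
  have e1 : ∀ F : VV n → ℝ, H2 F (ex i) (ex i) z = dx i (dx i F) z := fun F => rfl
  rw [e1, e1, fd_x, fd_x]
  ring

theorem P_y (hW : ContDiff ℝ ∞ W) (hf : ContDiff ℝ ∞ f) (z : VV n) :
    (fy n).P (fun _ => 0) W f z = ∑ i, Xd (ey i) W (Xd (ey i) W f) z := by
  unfold Sl.P Sl.K Sl.F
  rw [fy_Λ, fy_Λ, fy_Γ, fy_Γ]
  simp only [Xd_Xd hW hf]
  rw [zero_mul, add_zero, Finset.mul_sum, Finset.sum_mul, Finset.sum_mul, ← Finset.sum_add_distrib,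
    ← Finset.sum_add_distrib, ← Finset.sum_add_distrib]
  refine Finset.sum_congr rfl fun i _ => ?_
  have e1 : ∀ F : VV n → ℝ, H2 F (ey i) (ey i) z = dy i (dy i F) z := fun F => rfl
  rw [e1, e1, fd_y, fd_y]
  ring

/-- `R = (P_x - P_y) / 2`. -/
theorem Rf_P (hW : ContDiff ℝ ∞ W) (hf : ContDiff ℝ ∞ f) (z : VV n) :
    Rf eq' ep (fun i => dq i W) (fun i => dp i W) f z =
      ((fx n).P (fun _ => 0) W f z - (fy n).P (fun _ => 0) W f z) / 2 := by
  rw [P_x hW hf, P_y hW hf]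
  have h1 : ∀ i, Kf ep (fun i => dp i W) f i = Xd (ep i) W f := by
    intro i
    funext z
    unfold Kf Xd
    rw [fd_p i W z]
  have h2 : Rf eq' ep (fun i => dq i W) (fun i => dp i W) f z =
      ∑ i, Xd (eq' i) W (Xd (ep i) W f) z := by
    unfold Rf
    refine Finset.sum_congr rfl fun i _ => ?_
    rw [h1 i]
    have : Xd (eq' i) W (Xd (ep i) W f) z =
      fderiv ℝ (Xd (ep i) W f) z (eq' i) + fderiv ℝ W z (eq' i) * Xd (ep i) W f z := rfl
    rw [this, fd_q i W z]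
  rw [h2, ← Finset.sum_sub_distrib, Finset.sum_div]
  refine Finset.sum_congr rfl fun i _ => ?_
  simp only [Xd_Xd hW hf]
  have a1 : ∀ F : VV n → ℝ, ContDiff ℝ ∞ F → H2 F (eq' i) (ep i) z =
      (H2 F (ex i) (ex i) z - H2 F (ey i) (ey i) z) / 2 := by
    intro F hF
    unfold eq' ep
    rw [H2_smul_l hF, H2_sub_l hF, H2_add_r hF, H2_add_r hF, H2_symm hF (ex i) (ey i)]
    ring
  rw [a1 f hf, a1 W hW, fd_q, fd_q, fd_p, fd_p, fd_x, fd_x, fd_y, fd_y]
  unfold dq dp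
  ring

end

end Vale.Agent.P088.R2.H591.C
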