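import Vale.Agent.P088.R2.H591.C.AB1

/-!
# P088, stage 3, zone C: the row AB, part 2: energy identity, cut-off calculus
-/

open MeasureTheory Set Filter
open scoped ContDiff Topology

noncomputable section

namespace Vale.Agent.P088.R2.H591.C

open Vale.Agent.P088.LR Vale.Agent.P088.HY
open Vale.Agent.P088.R2.H961.GW
open Vale.Agent.P088.R2.H644 Vale.Agent.P088.R2.H644.Ch
open Vale.Agent.P088.R2.H205.C
open Vale.Agent.P088.R2.H960.C (YY Yi Ts r2)

variable {n : ℕ}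

theorem cdu {f : VV n → ℝ} (hf : ContDiff ℝ ∞ f) : Sm univ f := hf.contDiffOn

/-- Multiplication of a test function by a global smooth function. -/
theorem teL {f g : VV n → ℝ} (hf : Te univ f) (hg : ContDiff ℝ ∞ g) :
    Te univ fun z => g z * f z := hf.mul_left isOpen_univ (cdu hg)

theorem te_i {f : VV n → ℝ} (hf : Te univ f) : Integrable f :=
  hf.1.continuous.integrable_of_hasCompactSupport hf.2.1

theorem te_Xd {W f : VV n → ℝ} (hW : ContDiff ℝ ∞ W) (hf : Te univ f) (v : VV n) :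
    Te univ (Xd v W f) :=
  (hf.fd isOpen_univ v).add isOpen_univ (teL hf (fd_cd hW v))

/-- The density of the energy identity, slot with the directions `v i`. -/
def Fe (v : Fin n → VV n) (W m f : VV n → ℝ) (z : VV n) : ℝ :=
  -(m z * (f z * ∑ i, Xd (v i) W (Xd (v i) W f) z)) +
    2 * (m z * (f z * ∑ i, fderiv ℝ W z (v i) * Xd (v i) W f z)) -
    f z * (∑ i, fderiv ℝ m z (v i) * Xd (v i) W f z) - m z * ∑ i, Xd (v i) W f z ^ 2

theorem te_Fe {W m f : VV n → ℝ} (hW : ContDiff ℝ ∞ W) (hm : ContDiff ℝ ∞ m) (hf : Te univ f)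
    (v : Fin n → VV n) : Te univ (Fe v W m f) := by
  have o := isOpen_univ (X := VV n)
  have hX : ∀ i, Te univ (Xd (v i) W f) := fun i => te_Xd hW hf (v i)
  have hXX : ∀ i, Te univ (Xd (v i) W (Xd (v i) W f)) := fun i => te_Xd hW (hX i) (v i)
  have t1 := (teL (teL (Te.sum o Finset.univ fun i _ => hXX i) hf.1) hm).neg o
  have t2 := (teL (teL (Te.sum o Finset.univ fun i _ => teL (hX i) (fd_cd hW (v i))) hf.1)
    hm).cmul o 2
  have t3 := teL (Te.sum o Finset.univ fun i _ => teL (hX i) (fd_cd hm (v i))) hf.1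
  have t4 := teL (Te.sum o Finset.univ fun i _ => (hX i).sq o) hm
  exact (((t1.add o t2).sub o t3).sub o t4)

theorem int_Fe {W m f : VV n → ℝ} (hW : ContDiff ℝ ∞ W) (hm : ContDiff ℝ ∞ m) (hf : Te univ f)
    (v : Fin n → VV n) : ∫ z, Fe v W m f z = 0 := by
  have := haar_VV (n := n)
  have o := isOpen_univ (X := VV n)
  have hX : ∀ i, Te univ (Xd (v i) W f) := fun i => te_Xd hW hf (v i)
  have hG : ∀ i, Te univ fun z => m z * (f z * Xd (v i) W f z) := fun i =>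
    teL (teL (hX i) hf.1) hm
  have key : ∀ z, Fe v W m f z = ∑ i, -fderiv ℝ (fun z => m z * (f z * Xd (v i) W f z)) z (v i) := by
    intro z
    have h1 : ∀ i, fderiv ℝ (fun z => m z * (f z * Xd (v i) W f z)) z (v i) =
        fderiv ℝ m z (v i) * (f z * Xd (v i) W f z) +
          m z * (fderiv ℝ f z (v i) * Xd (v i) W f z + f z * fderiv ℝ (Xd (v i) W f) z (v i)) := by
      intro i
      have d1 : DifferentiableAt ℝ m z := (hm.differentiable (by simp)) z
      have d2 : DifferentiableAt ℝ f z := (hf.1.differentiable (by simp)) z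
      have d3 : DifferentiableAt ℝ (Xd (v i) W f) z := ((hX i).1.differentiable (by simp)) z
      rw [fderiv_fun_mul d1 (d2.fun_mul d3), fderiv_fun_mul d2 d3]
      simp only [_root_.add_apply, _root_.smul_apply, smul_eq_mul]
      ring
    simp only [h1]
    unfold Fe
    rw [Finset.mul_sum, Finset.mul_sum, Finset.mul_sum, Finset.mul_sum, Finset.mul_sum,
      Finset.mul_sum, Finset.mul_sum, ← Finset.sum_neg_distrib, ← Finset.sum_add_distrib,
      ← Finset.sum_sub_distrib, ← Finset.sum_sub_distrib]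
    refine Finset.sum_congr rfl fun i _ => ?_
    have e1 : Xd (v i) W (Xd (v i) W f) z =
      fderiv ℝ (Xd (v i) W f) z (v i) + fderiv ℝ W z (v i) * Xd (v i) W f z := rfl
    have e2 : Xd (v i) W f z = fderiv ℝ f z (v i) + fderiv ℝ W z (v i) * f z := rfl
    rw [e1, e2]
    ring
  simp only [key]
  have hi : ∀ i ∈ (Finset.univ : Finset (Fin n)), Integrable fun z =>
      -fderiv ℝ (fun z => m z * (f z * Xd (v i) W f z)) z (v i) :=
    fun i _ => (te_i ((hG i).fd o (v i))).neg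
  rw [integral_finsetSum _ hi]
  refine Finset.sum_eq_zero fun i _ => ?_
  rw [integral_neg, int_fd o (hG i) (v i), neg_zero]

/-- The pointwise energy inequality. `D` bounds `|∂χ|²`, `C1 h²` bounds `|∂h|²`. -/
theorem en_pt {x h f P κ D C1 w2 : ℝ} {Y w dx dh : Fin n → ℝ} (hh : 0 < h) (hκ : 0 < κ)
    (hD : ∑ i, dx i ^ 2 ≤ D) (hC : ∑ i, dh i ^ 2 ≤ C1 * h ^ 2) (hw : ∑ i, w i ^ 2 ≤ w2) :
    x ^ 2 * h * ∑ i, Y i ^ 2 + 2 * (-(x ^ 2 * h * (f * P)) +
      2 * (x ^ 2 * h * (f * ∑ i, w i * Y i)) - f * (∑ i, (2 * x * dx i * h + x ^ 2 * dh i) * Y i) -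
      x ^ 2 * h * ∑ i, Y i ^ 2) ≤
      κ * (x ^ 2 * P ^ 2) + 1 / κ * (x ^ 2 * h ^ 2) * f ^ 2 + 8 * (x ^ 2 * h * w2) * f ^ 2 +
      (16 * h * D + 4 * C1 * (x ^ 2 * h)) * f ^ 2 := by
  set S := ∑ i, Y i ^ 2 with hS
  have hS0 : 0 ≤ S := Finset.sum_nonneg fun _ _ => sq_nonneg _
  -- the P term
  have h1 : -(2 * (x ^ 2 * h * (f * P))) ≤ κ * (x ^ 2 * P ^ 2) + 1 / κ * (x ^ 2 * h ^ 2) * f ^ 2 := by
    have h2 : 0 ≤ κ * (P + h * f / κ) ^ 2 := by positivity
    have h3 : κ * (P + h * f / κ) ^ 2 = κ * P ^ 2 + 2 * (P * (h * f)) + 1 / κ * (h * f) ^ 2 := by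
      field_simp
      ring
    rw [h3] at h2
    nlinarith [mul_nonneg (sq_nonneg x) h2]
  -- the w term
  have h4 : 4 * (x ^ 2 * h * (f * ∑ i, w i * Y i)) ≤
      1 / 2 * (x ^ 2 * h) * S + 8 * (x ^ 2 * h * w2) * f ^ 2 := by
    have h5 : 4 * (f * ∑ i, w i * Y i) ≤ 1 / 2 * S + 8 * f ^ 2 * ∑ i, w i ^ 2 := by
      rw [hS, Finset.mul_sum, Finset.mul_sum, Finset.mul_sum, Finset.mul_sum,
        ← Finset.sum_add_distrib]
      refine Finset.sum_le_sum fun i _ => ?_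
      nlinarith [sq_nonneg (Y i - 4 * f * w i)]
    have h6 : 0 ≤ x ^ 2 * h := by positivity
    have h7 := mul_le_mul_of_nonneg_left h5 h6
    have h8 := mul_le_mul_of_nonneg_left hw (by positivity : 0 ≤ x ^ 2 * h * (8 * f ^ 2))
    nlinarith
  -- the derivative of m
  have h9 : -(2 * (f * ∑ i, (2 * x * dx i * h + x ^ 2 * dh i) * Y i)) ≤
      1 / 2 * (x ^ 2 * h) * S + (16 * h * D + 4 * C1 * (x ^ 2 * h)) * f ^ 2 := by
    have h10 : -(2 * (f * ∑ i, (2 * x * dx i * h + x ^ 2 * dh i) * Y i)) ≤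
        1 / 2 * (x ^ 2 * h) * S + 16 * h * f ^ 2 * ∑ i, dx i ^ 2 +
          4 * x ^ 2 / h * f ^ 2 * ∑ i, dh i ^ 2 := by
      rw [hS, Finset.mul_sum, Finset.mul_sum, Finset.mul_sum, Finset.mul_sum, Finset.mul_sum,
        ← Finset.sum_add_distrib, ← Finset.sum_add_distrib, ← Finset.sum_neg_distrib]
      refine Finset.sum_le_sum fun i _ => ?_
      have a1 : 0 ≤ h * (1 / 2 * x * Y i + 4 * f * dx i) ^ 2 := by positivity
      have a2 : 0 ≤ (1 / 2 * x * h * Y i + 2 * f * x * dh i) ^ 2 / h := by positivity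
      have a3 : (1 / 2 * x * h * Y i + 2 * f * x * dh i) ^ 2 / h =
          1 / 4 * x ^ 2 * h * Y i ^ 2 + 2 * f * x ^ 2 * dh i * Y i +
            4 * x ^ 2 / h * f ^ 2 * dh i ^ 2 := by
        field_simp
        ring
      rw [a3] at a2
      nlinarith
    have h11 : 16 * h * f ^ 2 * ∑ i, dx i ^ 2 ≤ 16 * h * f ^ 2 * D :=
      mul_le_mul_of_nonneg_left hD (by positivity)
    have h12 : 4 * x ^ 2 / h * f ^ 2 * ∑ i, dh i ^ 2 ≤ 4 * x ^ 2 / h * f ^ 2 * (C1 * h ^ 2) :=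
      mul_le_mul_of_nonneg_left hC (by positivity)
    have h13 : 4 * x ^ 2 / h * f ^ 2 * (C1 * h ^ 2) = 4 * C1 * (x ^ 2 * h) * f ^ 2 := by
      field_simp
    nlinarith
  nlinarith

/-- Squares of derivatives. -/
theorem ga_le (χ : VV n → ℝ) (z : VV n) :
    ∑ i, dx i χ z ^ 2 ≤ 2 * (gq χ z + gp χ z) ∧ ∑ i, dy i χ z ^ 2 ≤ 2 * (gq χ z + gp χ z) := by
  unfold gq gp dq dp
  rw [← Finset.sum_add_distrib, Finset.mul_sum]
  constructor
  · refine Finset.sum_le_sum fun i _ => ?_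
    nlinarith [sq_nonneg (dx i χ z), sq_nonneg (dy i χ z),
      sq_nonneg ((dx i χ z - dy i χ z) / 2 - (dx i χ z + dy i χ z) / 2),
      sq_nonneg (dx i χ z + dy i χ z)]
  · refine Finset.sum_le_sum fun i _ => ?_
    nlinarith [sq_nonneg (dx i χ z), sq_nonneg (dy i χ z),
      sq_nonneg ((dx i χ z - dy i χ z) / 2 + (dx i χ z + dy i χ z) / 2),
      sq_nonneg (dx i χ z + dy i χ z)]

end Vale.Agent.P088.R2.H591.C
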