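import Vale.Agent.P088.R2.H591.C.AB2

/-!
# P088, stage 3, zone C: the row AB, part 3: scalar inequalities
-/

open Set Filter

noncomputable section

set_option linter.unusedSectionVars false

namespace Vale.Agent.P088.R2.H591.C

/-- The constants. -/
structure Ks (C0 cl ε δ c4 K0 : ℝ) : Prop where
  c0 : 1 ≤ C0
  lp : 0 < cl
  e : 0 < ε
  d : 0 < δ
  d1 : δ ≤ 1 / 32
  d2 : 2 * δ ≤ ε / 2
  cc : c4 = 16 * C0 / δ
  k1 : 1 ≤ K0
  k2 : C0 ≤ K0
  k3 : 12 / ε ≤ K0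
  k4 : 512 * c4 * C0 / ε ≤ K0
  k5 : 512 * c4 * C0 / (ε * cl ^ 2) ≤ K0
  k6 : 128 * C0 / (δ * ε * cl ^ 2) ≤ K0
  k7 : 1 / (δ * cl) ≤ K0

theorem ks_ex {C0 cl ε : ℝ} (hC : 1 ≤ C0) (hcl : 0 < cl) (hε : 0 < ε) :
    ∃ δ c4 K0, Ks C0 cl ε δ c4 K0 := by
  refine ⟨min (1 / 32) (ε / 4), 16 * C0 / min (1 / 32) (ε / 4),
    1 + C0 + 12 / ε + 512 * (16 * C0 / min (1 / 32) (ε / 4)) * C0 / ε +
      512 * (16 * C0 / min (1 / 32) (ε / 4)) * C0 / (ε * cl ^ 2) +
      128 * C0 / (min (1 / 32) (ε / 4) * ε * cl ^ 2) + 1 / (min (1 / 32) (ε / 4) * cl), ?_⟩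
  have hδ : 0 < min (1 / 32) (ε / 4) := lt_min (by norm_num) (by positivity)
  have hC0 : 0 < C0 := by linarith
  have h1 : min (1 / 32) (ε / 4) ≤ 1 / 32 := min_le_left _ _
  have h2 : min (1 / 32) (ε / 4) ≤ ε / 4 := min_le_right _ _
  generalize min (1 / 32) (ε / 4) = δ at *
  have p1 : 0 < 12 / ε := by positivity
  have p2 : 0 < 512 * (16 * C0 / δ) * C0 / ε := by positivity
  have p3 : 0 < 512 * (16 * C0 / δ) * C0 / (ε * cl ^ 2) := by positivity
  have p4 : 0 < 128 * C0 / (δ * ε * cl ^ 2) := by positivity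
  have p5 : 0 < 1 / (δ * cl) := by positivity
  exact ⟨hC, hcl, hε, hδ, h1, by linarith, rfl, by linarith, by linarith, by linarith,
    by linarith, by linarith, by linarith, by linarith⟩

section

variable {C0 cl ε δ c4 K0 N K E r : ℝ}

/-- The numbers at one point. -/
structure Nm (C0 cl K0 N K E r : ℝ) : Prop where
  kk : K0 ≤ K
  kn : K ≤ C0 * N
  k2 : K0 * N ^ 2 ≤ K ^ 3
  ep : 0 < E
  tk : cl * K ≤ E * r

variable (k : Ks C0 cl ε δ c4 K0) (m : Nm C0 cl K0 N K E r)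

include k m

theorem nm_K : 1 ≤ K := k.k1.trans m.kk

theorem nm_N : 1 ≤ N := by
  have h1 := k.k2.trans m.kk
  have h2 : C0 * 1 ≤ C0 * N := by linarith [m.kn]
  exact le_of_mul_le_mul_left h2 (by linarith [k.c0])

theorem nm_t : 0 < E * r := (mul_pos k.lp (by linarith [nm_K k m])).trans_le m.tk

theorem nm_r : 0 < r := by
  have h := nm_t k m
  exact pos_of_mul_pos_right h m.ep.le |> fun h => h

/-- `h = 1 + N² / (cl K)² ≤ η K`. -/
theorem nm_h : 256 * c4 * C0 * (1 + N ^ 2 / (cl * K) ^ 2) ≤ ε * K := by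
  have hK := nm_K k m
  have hN := nm_N k m
  have hcl := k.lp
  have hε := k.e
  have hδ := k.d
  have hC : 0 < C0 := by linarith [k.c0]
  have hc4 : 0 < c4 := by rw [k.cc]; positivity
  have hK0 : 0 < K0 := by linarith [k.k1]
  have h1 : 256 * c4 * C0 ≤ ε * K / 2 := by
    have := k.k4.trans m.kk
    rw [div_le_iff₀ hε] at this
    linarith
  have h2 : 256 * c4 * C0 * (N ^ 2 / (cl * K) ^ 2) ≤ ε * K / 2 := by
    have h3 := k.k5
    rw [div_le_iff₀ (by positivity)] at h3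
    have h4 := m.k2
    have h5 : 512 * c4 * C0 * N ^ 2 ≤ ε * cl ^ 2 * K ^ 3 := by
      calc 512 * c4 * C0 * N ^ 2 ≤ K0 * (ε * cl ^ 2) * N ^ 2 :=
            mul_le_mul_of_nonneg_right h3 (by positivity)
        _ = ε * cl ^ 2 * (K0 * N ^ 2) := by ring
        _ ≤ ε * cl ^ 2 * K ^ 3 := mul_le_mul_of_nonneg_left h4 (by positivity)
    rw [← mul_div_assoc, div_le_iff₀ (by positivity)]
    nlinarith
  rw [mul_add, mul_one]
  linarith

theorem nm_Vt : (N + E * r) ^ 2 ≤ 2 * (1 + N ^ 2 / (cl * K) ^ 2) * (E * r) ^ 2 := by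
  have hK := nm_K k m
  have hcl := k.lp
  have ht := nm_t k m
  have htk := m.tk
  set t := E * r with hdt
  have h1 : N ^ 2 ≤ N ^ 2 / (cl * K) ^ 2 * t ^ 2 := by
    have hp : 0 < cl * K := by positivity
    rw [div_mul_eq_mul_div, le_div_iff₀ (by positivity)]
    exact mul_le_mul_of_nonneg_left (pow_le_pow_left₀ hp.le htk 2) (sq_nonneg _)
  nlinarith [sq_nonneg (N - t)]

theorem nm_Q : 1 ≤ N ^ 2 + E * (E * r) := by
  have h1 := nm_N k m
  have h2 := mul_pos m.ep (nm_t k m)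
  nlinarith

/-- `E ≤ Q / (cl K)`. -/
theorem nm_E : E * (cl * K) ≤ N ^ 2 + E * (E * r) := by
  have h1 := mul_le_mul_of_nonneg_left m.tk m.ep.le
  nlinarith [sq_nonneg N]

/-- The derivative of `W_p`. -/
theorem nm_d : 32 / δ * (C0 * (K ^ 2 + E * (E * r))) / (E * r) ^ 2 ≤
    ε / 2 * K * (N ^ 2 + E * (E * r)) := by
  have hK := nm_K k m
  have hcl := k.lp
  have hε := k.e
  have hδ := k.d
  have hC : 0 < C0 := by linarith [k.c0]
  have ht := nm_t k m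
  have htk := m.tk
  have hQ := nm_Q k m
  have hE := nm_E k m
  have hep := m.ep
  set t := E * r with hdt
  set Q := N ^ 2 + E * t with hQd
  have hp : 0 < cl * K := by positivity
  have hQ0 : 0 < Q := by linarith
  -- K^2 / t^2 ≤ 1 / cl^2
  have h1 : cl ^ 2 * (K ^ 2 + E * t) ≤ 2 * Q * t ^ 2 := by
    have h2 : (cl * K) ^ 2 ≤ t ^ 2 := pow_le_pow_left₀ hp.le htk 2
    have h3 : (cl * K) ^ 2 ≤ Q * t ^ 2 := by nlinarith [sq_nonneg t]
    have h4 : cl ^ 2 * (E * t) ≤ Q * t ^ 2 := by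
      have h5 : cl ^ 2 * E ≤ Q * t := by
        calc cl ^ 2 * E ≤ cl * (E * (cl * K)) := by nlinarith [mul_pos hcl (mul_pos hcl hep)]
          _ ≤ cl * Q := mul_le_mul_of_nonneg_left hE hcl.le
          _ ≤ (cl * K) * Q := by nlinarith [mul_pos hcl hQ0]
          _ ≤ t * Q := mul_le_mul_of_nonneg_right htk hQ0.le
          _ = Q * t := by ring
      nlinarith
    nlinarith
  have h6 : 128 * C0 ≤ K * (δ * ε * cl ^ 2) := by
    have := k.k6.trans m.kk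
    rwa [div_le_iff₀ (by positivity)] at this
  rw [div_le_iff₀ (by positivity)]
  have h7 : 32 / δ * (C0 * (K ^ 2 + E * t)) = 32 * C0 / (δ * cl ^ 2) * (cl ^ 2 * (K ^ 2 + E * t)) := by
    field_simp
  rw [h7]
  have h8 : 32 * C0 / (δ * cl ^ 2) ≤ ε * K / 4 := by
    rw [div_le_iff₀ (by positivity)]
    nlinarith
  calc 32 * C0 / (δ * cl ^ 2) * (cl ^ 2 * (K ^ 2 + E * t))
      ≤ 32 * C0 / (δ * cl ^ 2) * (2 * Q * t ^ 2) :=
        mul_le_mul_of_nonneg_left h1 (by positivity)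
    _ ≤ ε * K / 4 * (2 * Q * t ^ 2) := mul_le_mul_of_nonneg_right h8 (by positivity)
    _ = ε / 2 * K * Q * t ^ 2 := by ring

/-- The coefficient of `|∂χ|²`. -/
theorem nm_G : 32 * c4 * (1 + N ^ 2 / (cl * K) ^ 2) + 516 / r ≤
    (32 * c4 * (C0 ^ 2 + 1 / cl ^ 2) + 516 / cl) * (E / K + N ^ 2 / K ^ 2) := by
  have hK := nm_K k m
  have hK0 : 0 < K := by linarith
  have hN := nm_N k m
  have hcl := k.lp
  have hδ := k.d
  have hC : 0 < C0 := by linarith [k.c0]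
  have hc4 : 0 < c4 := by rw [k.cc]; positivity
  have ht := nm_t k m
  have hr := nm_r k m
  have hep := m.ep
  have h1 : 1 + N ^ 2 / (cl * K) ^ 2 ≤ (C0 ^ 2 + 1 / cl ^ 2) * (N ^ 2 / K ^ 2) := by
    have h2 : 1 ≤ C0 ^ 2 * (N ^ 2 / K ^ 2) := by
      rw [← mul_div_assoc, le_div_iff₀ (by positivity), one_mul, ← mul_pow]
      exact pow_le_pow_left₀ hK0.le m.kn 2
    have h3 : N ^ 2 / (cl * K) ^ 2 = 1 / cl ^ 2 * (N ^ 2 / K ^ 2) := by
      field_simp
    rw [h3]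
    linarith
  have h4 : 1 / r ≤ 1 / cl * (E / K) := by
    rw [div_mul_div_comm, one_mul, div_le_div_iff₀ hr (by positivity), one_mul]
    exact m.tk
  have h5 : 516 / r ≤ 516 / cl * (E / K) := by
    have := mul_le_mul_of_nonneg_left h4 (by norm_num : (0 : ℝ) ≤ 516)
    calc 516 / r = 516 * (1 / r) := by ring
      _ ≤ 516 * (1 / cl * (E / K)) := this
      _ = 516 / cl * (E / K) := by ring
  have h6 : 32 * c4 * (1 + N ^ 2 / (cl * K) ^ 2) ≤
      32 * c4 * (C0 ^ 2 + 1 / cl ^ 2) * (N ^ 2 / K ^ 2) := by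
    have := mul_le_mul_of_nonneg_left h1 (by positivity : 0 ≤ 32 * c4)
    linarith
  have p1 : 0 ≤ 516 / cl * (N ^ 2 / K ^ 2) := by positivity
  have p2 : 0 ≤ 32 * c4 * (C0 ^ 2 + 1 / cl ^ 2) * (E / K) := by positivity
  nlinarith

/-- The coefficient of `f² + g²`. -/
theorem nm_Z : 16 * c4 * C0 * (1 + N ^ 2 / (cl * K) ^ 2) * (N ^ 2 + E * (E * r)) +
    2 * c4 ^ 2 / ε * (1 + N ^ 2 / (cl * K) ^ 2) ^ 2 + 64 * c4 * C0 * (1 + N ^ 2 / (cl * K) ^ 2) +
    1 / 2 * (32 / δ * (C0 * (K ^ 2 + E * (E * r))) / (E * r) ^ 2) ≤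
    ε * K * (N ^ 2 + E * (E * r)) := by
  have hd := nm_d k m
  have hh := nm_h k m
  have hQ := nm_Q k m
  have hK := nm_K k m
  have hcl := k.lp
  have hε := k.e
  have hδ := k.d
  have hC : 1 ≤ C0 := k.c0
  have hc4 : 0 < c4 := by rw [k.cc]; positivity
  have hN := nm_N k m
  have hNQ : N ^ 2 ≤ N ^ 2 + E * (E * r) := by
    have := mul_pos m.ep (nm_t k m); linarith
  have hkn := m.kn
  set h := 1 + N ^ 2 / (cl * K) ^ 2 with hdh
  have hh1 : 1 ≤ h := by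
    have : 0 ≤ N ^ 2 / (cl * K) ^ 2 := by positivity
    linarith
  set Q := N ^ 2 + E * (E * r) with hQd
  have a1 : 16 * c4 * C0 * h * Q ≤ ε * K / 16 * Q :=
    mul_le_mul_of_nonneg_right (by linarith) (by linarith)
  have a3 : 64 * c4 * C0 * h ≤ ε * K / 4 * Q := by
    have : 64 * c4 * C0 * h ≤ ε * K / 4 := by linarith
    refine this.trans ?_
    have : 0 ≤ ε * K / 4 := by positivity
    exact le_mul_of_one_le_right this hQ
  have a2 : 2 * c4 ^ 2 / ε * h ^ 2 ≤ ε * K / 16 * Q := by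
    have b1 : c4 * h ≤ ε * K / (256 * C0) := by
      rw [le_div_iff₀ (by positivity)]; linarith
    have b2 : (c4 * h) ^ 2 ≤ (ε * K / (256 * C0)) ^ 2 :=
      pow_le_pow_left₀ (by positivity) b1 2
    have b3 : 2 * c4 ^ 2 / ε * h ^ 2 = 2 / ε * (c4 * h) ^ 2 := by ring
    rw [b3]
    have b4 : 2 / ε * (ε * K / (256 * C0)) ^ 2 = ε / 32768 * (K ^ 2 / C0 ^ 2) := by
      field_simp; norm_num
    have b5 : K ^ 2 / C0 ^ 2 ≤ Q := by
      rw [div_le_iff₀ (by positivity)]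
      calc K ^ 2 ≤ (C0 * N) ^ 2 := pow_le_pow_left₀ (by linarith) hkn 2
        _ = N ^ 2 * C0 ^ 2 := by ring
        _ ≤ Q * C0 ^ 2 := mul_le_mul_of_nonneg_right hNQ (by positivity)
    have b6 : 2 / ε * (c4 * h) ^ 2 ≤ ε / 32768 * Q := by
      have := mul_le_mul_of_nonneg_left b2 (by positivity : 0 ≤ 2 / ε)
      rw [b4] at this
      exact this.trans (mul_le_mul_of_nonneg_left b5 (by positivity))
    refine b6.trans (mul_le_mul_of_nonneg_right ?_ (by linarith))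
    nlinarith
  have a4 : 1 / 2 * (32 / δ * (C0 * (K ^ 2 + E * (E * r))) / (E * r) ^ 2) ≤ ε * K / 4 * Q := by
    linarith
  have : 0 ≤ ε * K * Q := by positivity
  nlinarith

end

end Vale.Agent.P088.R2.H591.C
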