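import Vale.Agent.P088.R2.H591.C.AB3

/-!
# P088, stage 3, zone C: the row AB, part 4: the general theorem
-/

open MeasureTheory Set Filter
open scoped ContDiff Topology

noncomputable section

namespace Vale.Agent.P088.R2.H591.C

open Vale.Agent.P088.LR Vale.Agent.P088.HY
open Vale.Agent.P088.R2.H961.GW
open Vale.Agent.P088.R2.H644 Vale.Agent.P088.R2.H644.Ch
open Vale.Agent.P088.R2.H205.C
open Vale.Agent.P088.R2.H960.C (YY Yi Ts r2)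

variable {n : ℕ}

/-- Derivative of `h`. -/
theorem hd_pt {N K cl C0 : ℝ} {Ni Ki : Fin n → ℝ} (hN : 0 < N) (hK : 0 < K) (hcl : 0 < cl)
    (hC : 0 ≤ C0) (h1 : ∑ i, Ni i ^ 2 ≤ C0 * N ^ 2) (h2 : ∑ i, Ki i ^ 2 ≤ C0 * K ^ 2) :
    ∑ i, ((2 * N * Ni i * (cl * K) ^ 2 - N ^ 2 * (2 * (cl * K) * (cl * Ki i))) /
      ((cl * K) ^ 2) ^ 2) ^ 2 ≤ 16 * C0 * (1 + N ^ 2 / (cl * K) ^ 2) ^ 2 := by
  set a := N ^ 2 / (cl * K) ^ 2 with ha
  have ha0 : 0 ≤ a := by positivity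
  have h3 : ∀ i, ((2 * N * Ni i * (cl * K) ^ 2 - N ^ 2 * (2 * (cl * K) * (cl * Ki i))) /
      ((cl * K) ^ 2) ^ 2) ^ 2 ≤ 8 * a ^ 2 / N ^ 2 * Ni i ^ 2 + 8 * a ^ 2 / K ^ 2 * Ki i ^ 2 := by
    intro i
    have e1 : (2 * N * Ni i * (cl * K) ^ 2 - N ^ 2 * (2 * (cl * K) * (cl * Ki i))) /
      ((cl * K) ^ 2) ^ 2 = 2 * a * (Ni i / N - Ki i / K) := by
      rw [ha]; field_simp
    rw [e1]
    have e2 : 8 * a ^ 2 / N ^ 2 * Ni i ^ 2 + 8 * a ^ 2 / K ^ 2 * Ki i ^ 2 =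
      8 * a ^ 2 * ((Ni i / N) ^ 2 + (Ki i / K) ^ 2) := by
      field_simp
    rw [e2]
    nlinarith [mul_nonneg (sq_nonneg a) (sq_nonneg (Ni i / N + Ki i / K))]
  refine (Finset.sum_le_sum fun i _ => h3 i).trans ?_
  rw [Finset.sum_add_distrib, ← Finset.mul_sum, ← Finset.mul_sum]
  have h4 := mul_le_mul_of_nonneg_left h1 (by positivity : 0 ≤ 8 * a ^ 2 / N ^ 2)
  have h5 := mul_le_mul_of_nonneg_left h2 (by positivity : 0 ≤ 8 * a ^ 2 / K ^ 2)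
  have e3 : 8 * a ^ 2 / N ^ 2 * (C0 * N ^ 2) = 8 * C0 * a ^ 2 := by field_simp
  have e4 : 8 * a ^ 2 / K ^ 2 * (C0 * K ^ 2) = 8 * C0 * a ^ 2 := by field_simp
  rw [e3] at h4
  rw [e4] at h5
  have h6 : a ^ 2 ≤ (1 + a) ^ 2 := by nlinarith
  nlinarith [mul_le_mul_of_nonneg_left h6 hC]

/-- The own slots. -/
theorem own_pt {f w2 : ℝ} {U w : Fin n → ℝ} (hw : ∑ i, w i ^ 2 ≤ w2) :
    ∑ i, (2 * (w i * f) - U i) ^ 2 ≤ 2 * s2 U + 8 * w2 * f ^ 2 := by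
  have h1 : ∀ i, (2 * (w i * f) - U i) ^ 2 ≤ 2 * U i ^ 2 + 8 * f ^ 2 * w i ^ 2 := by
    intro i
    nlinarith [sq_nonneg (2 * (w i * f) + U i)]
  refine (Finset.sum_le_sum fun i _ => h1 i).trans ?_
  rw [Finset.sum_add_distrib, ← Finset.mul_sum, ← Finset.mul_sum]
  unfold s2
  nlinarith [mul_le_mul_of_nonneg_left hw (by positivity : 0 ≤ 8 * f ^ 2)]

/-- The term of `W_p`. -/
theorem V_pt {B2 : ℝ} {B a b c d : Fin n → ℝ} (hB : ∑ i, B i ^ 2 ≤ B2) :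
    (∑ i, B i * ((a i - b i - c i + d i) / 4)) ^ 2 ≤
      B2 / 4 * (∑ i, a i ^ 2 + ∑ i, b i ^ 2 + ∑ i, c i ^ 2 + ∑ i, d i ^ 2) := by
  have h1 := Finset.sum_mul_sq_le_sq_mul_sq Finset.univ B
    (fun i => (a i - b i - c i + d i) / 4)
  refine h1.trans ?_
  have h2 : ∑ i, ((a i - b i - c i + d i) / 4) ^ 2 ≤
      1 / 4 * (∑ i, a i ^ 2 + ∑ i, b i ^ 2 + ∑ i, c i ^ 2 + ∑ i, d i ^ 2) := by
    rw [← Finset.sum_add_distrib, ← Finset.sum_add_distrib, ← Finset.sum_add_distrib,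
      Finset.mul_sum]
    refine Finset.sum_le_sum fun i _ => ?_
    nlinarith [sq_nonneg (a i + b i), sq_nonneg (c i + d i), sq_nonneg (a i + c i),
      sq_nonneg (a i - d i), sq_nonneg (b i - c i), sq_nonneg (b i + d i)]
  have h3 : 0 ≤ ∑ i, ((a i - b i - c i + d i) / 4) ^ 2 := Finset.sum_nonneg fun _ _ => sq_nonneg _
  have h4 : 0 ≤ ∑ i, B i ^ 2 := Finset.sum_nonneg fun _ _ => sq_nonneg _
  nlinarith [mul_le_mul hB h2 h3 (h4.trans hB)]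

/-- The pointwise hypotheses. -/
structure Hz (C0 cl K0 : ℝ) (W N K E : VV n → ℝ) (z : VV n) : Prop where
  nm : Nm C0 cl K0 (N z) (K z) (E z) (qq z)
  nx : ∑ i, dx i N z ^ 2 ≤ C0 * N z ^ 2
  ny : ∑ i, dy i N z ^ 2 ≤ C0 * N z ^ 2
  kx : ∑ i, dx i K z ^ 2 ≤ C0 * K z ^ 2
  ky : ∑ i, dy i K z ^ 2 ≤ C0 * K z ^ 2
  wq : 3 / 4 * E z * qq z ≤ ∑ i, dq i W z * qv i z
  wx : ∑ i, dx i W z ^ 2 ≤ C0 * (N z ^ 2 + E z * (E z * qq z))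
  wy : ∑ i, dy i W z ^ 2 ≤ C0 * (N z ^ 2 + E z * (E z * qq z))
  wp : ∑ i, dp i W z ^ 2 ≤ C0 * (N z + E z * qq z) ^ 2
  wd : (∑ i, dq i (dp i W) z) ^ 2 ≤ C0 * (K z ^ 2 + E z * (E z * qq z))

/-- The weight `m = χ² h`. -/
def mw (cl : ℝ) (N K χ : VV n → ℝ) (z : VV n) : ℝ :=
  χ z ^ 2 + χ z ^ 2 * N z ^ 2 / (cl * K z) ^ 2

theorem cont_diff_mw {cl : ℝ} {N K χ : VV n → ℝ} (hN : ContDiff ℝ ∞ N)
    (hK : ContDiff ℝ ∞ K) (hχ : ContDiff ℝ ∞ χ) (h : ∀ z ∈ tsupport χ, cl * K z ≠ 0) :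
    ContDiff ℝ ∞ (mw cl N K χ) := by
  refine (hχ.pow 2).add (cd_div ((hχ.pow 2).mul (hN.pow 2)) ((contDiff_const.mul hK).pow 2) ?_)
  intro z hz
  refine pow_ne_zero _ (h z ?_)
  refine (closure_mono ?_) hz
  intro y hy
  simp only [Function.mem_support] at hy ⊢
  exact fun h => hy (by rw [h]; ring)

theorem fd_mw {cl : ℝ} {N K χ : VV n → ℝ} (hN : ContDiff ℝ ∞ N)
    (hK : ContDiff ℝ ∞ K) (hχ : ContDiff ℝ ∞ χ) {z : VV n} (h : cl * K z ≠ 0) (v : VV n) :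
    fderiv ℝ (mw cl N K χ) z v = 2 * χ z * fderiv ℝ χ z v * (1 + N z ^ 2 / (cl * K z) ^ 2) +
      χ z ^ 2 * ((2 * N z * fderiv ℝ N z v * (cl * K z) ^ 2 -
        N z ^ 2 * (2 * (cl * K z) * (cl * fderiv ℝ K z v))) / ((cl * K z) ^ 2) ^ 2) := by
  have dN : HasFDerivAt N (fderiv ℝ N z) z := ((hN.differentiable (by simp)) z).hasFDerivAt
  have dK : HasFDerivAt K (fderiv ℝ K z) z := ((hK.differentiable (by simp)) z).hasFDerivAt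
  have dχ : HasFDerivAt χ (fderiv ℝ χ z) z := ((hχ.differentiable (by simp)) z).hasFDerivAt
  have h1 : HasFDerivAt (fun z => χ z ^ 2) ((2 * χ z) • fderiv ℝ χ z) z := by
    simpa using dχ.pow 2
  have h2 : HasFDerivAt (fun z => N z ^ 2) ((2 * N z) • fderiv ℝ N z) z := by
    simpa using dN.pow 2
  have h3 : HasFDerivAt (fun z => (cl * K z) ^ 2) ((2 * (cl * K z)) • cl • fderiv ℝ K z) z := by
    have := (dK.const_mul cl).pow 2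
    simpa using this
  have h4 : (cl * K z) ^ 2 ≠ 0 := pow_ne_zero _ h
  have h5 := (hasDerivAt_inv h4).comp_hasFDerivAt z h3
  have h6 := h1.add ((h1.mul h2).mul h5)
  have e : mw cl N K χ = fun z => χ z ^ 2 + χ z ^ 2 * N z ^ 2 * ((cl * K z) ^ 2)⁻¹ :=
    funext fun z => by unfold mw; rw [div_eq_mul_inv]
  rw [e]
  have h7 := h6.fderiv
  change fderiv ℝ (fun z => χ z ^ 2 + χ z ^ 2 * N z ^ 2 * ((cl * K z) ^ 2)⁻¹) z = _ at h7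
  rw [h7]
  simp only [_root_.add_apply, _root_.smul_apply, smul_eq_mul, Function.comp_apply, Pi.mul_apply]
  have hK0 : K z ≠ 0 := right_ne_zero_of_mul h
  have hc0 : cl ≠ 0 := left_ne_zero_of_mul h
  field_simp
  ring

end Vale.Agent.P088.R2.H591.C
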