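import Vale.Agent.P088.R2.H591.C.AB4

/-!
# P088, stage 3, zone C: the row AB, part 5: the general theorem
-/

open MeasureTheory Set Filter
open scoped ContDiff Topology

noncomputable section

namespace Vale.Agent.P088.R2.H591.C

open Vale.Agent.P088.LR Vale.Agent.P088.HY
open Vale.Agent.P088.R2.H961.GW
open Vale.Agent.P088.R2.H644 Vale.Agent.P088.R2.H644.Ch
open Vale.Agent.P088.R2.H205.C
open Vale.Agent.P088.R2.H960.C (YY Yi Ts r2)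

variable {n : ℕ}

section

variable {W f g : VV n → ℝ}

theorem fd_hb (hf : ContDiff ℝ ∞ f) (hg : ContDiff ℝ ∞ g) (z v : VV n) :
    fderiv ℝ (hb f g) z v = (fderiv ℝ f z v + fderiv ℝ g z v) / 2 := by
  have d1 : DifferentiableAt ℝ f z := (hf.differentiable (by simp)) z
  have d2 : DifferentiableAt ℝ g z := (hg.differentiable (by simp)) z
  have e : hb f g = fun z => (1 / 2 : ℝ) * (f z + g z) := funext fun z => by unfold hb; ring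
  rw [e, fderiv_const_mul (d1.fun_add d2), fderiv_fun_add d1 d2]
  simp only [_root_.add_apply, _root_.smul_apply, smul_eq_mul]
  ring

theorem fd_hd (hf : ContDiff ℝ ∞ f) (hg : ContDiff ℝ ∞ g) (z v : VV n) :
    fderiv ℝ (hd f g) z v = (fderiv ℝ f z v - fderiv ℝ g z v) / 2 := by
  have d1 : DifferentiableAt ℝ f z := (hf.differentiable (by simp)) z
  have d2 : DifferentiableAt ℝ g z := (hg.differentiable (by simp)) z
  have e : hd f g = fun z => (1 / 2 : ℝ) * (f z - g z) := funext fun z => by unfold hd; ring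
  rw [e, fderiv_const_mul (d1.fun_sub d2), fderiv_fun_sub d1 d2]
  simp only [_root_.sub_apply, _root_.smul_apply, smul_eq_mul]
  ring

theorem Xd_hd (hf : ContDiff ℝ ∞ f) (hg : ContDiff ℝ ∞ g) (v : VV n) :
    Xd v W (hd f g) = hd (Xd v W f) (Xd v W g) := by
  funext z
  have e : Xd v W (hd f g) z = fderiv ℝ (hd f g) z v + fderiv ℝ W z v * hd f g z := rfl
  rw [e, fd_hd hf hg]
  unfold hd Xd
  ring

theorem P_hd_x (hW : ContDiff ℝ ∞ W) (hf : ContDiff ℝ ∞ f) (hg : ContDiff ℝ ∞ g) (z : VV n)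
    (hc : ContDiff ℝ ∞ (hd f g)) :
    (fx n).P (fun _ => 0) W (hd f g) z =
      ((fx n).P (fun _ => 0) W f z - (fx n).P (fun _ => 0) W g z) / 2 := by
  rw [P_x hW hc, P_x hW hf, P_x hW hg, ← Finset.sum_sub_distrib, Finset.sum_div]
  refine Finset.sum_congr rfl fun i _ => ?_
  rw [Xd_hd hf hg, Xd_hd (Xd_cd hW hf _) (Xd_cd hW hg _)]
  rfl

theorem P_hd_y (hW : ContDiff ℝ ∞ W) (hf : ContDiff ℝ ∞ f) (hg : ContDiff ℝ ∞ g) (z : VV n)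
    (hc : ContDiff ℝ ∞ (hd f g)) :
    (fy n).P (fun _ => 0) W (hd f g) z =
      ((fy n).P (fun _ => 0) W f z - (fy n).P (fun _ => 0) W g z) / 2 := by
  rw [P_y hW hc, P_y hW hf, P_y hW hg, ← Finset.sum_sub_distrib, Finset.sum_div]
  refine Finset.sum_congr rfl fun i _ => ?_
  rw [Xd_hd hf hg, Xd_hd (Xd_cd hW hf _) (Xd_cd hW hg _)]
  rfl

theorem YY_eq (hf : ContDiff ℝ ∞ f) (hg : ContDiff ℝ ∞ g) (z : VV n) :
    YY eq' ep (fun i => dq i W) (fun i => dp i W) (hb f g) (hd f g) z = s2 (Yv W f g z) := by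
  unfold YY s2
  refine Finset.sum_congr rfl fun i _ => ?_
  congr 1
  unfold Yi Yv Uu Uv
  rw [fd_hb hf hg, fd_hd hf hg, fd_q, fd_q, fd_p, fd_p]
  unfold hb hd dq dp
  ring

theorem Vf_eq (hf : ContDiff ℝ ∞ f) (hg : ContDiff ℝ ∞ g) (z : VV n) :
    Vf eq' (fun i => dq i W) (fun i => dp i W) (hd f g) z =
      ∑ i, dp i W z * ((Xd (ex i) W f z - Xd (ex i) W g z - Xd (ey i) W f z + Xd (ey i) W g z) / 4)
      := by
  unfold Vf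
  refine Finset.sum_congr rfl fun i _ => ?_
  congr 1
  unfold Xd
  rw [fd_hd hf hg, fd_q, fd_q]
  simp only [fd_x, fd_y]
  unfold hd dq
  ring

theorem Rf_sq (hW : ContDiff ℝ ∞ W) (hf : ContDiff ℝ ∞ f) (hg : ContDiff ℝ ∞ g) (z : VV n)
    (hc : ContDiff ℝ ∞ (hd f g)) :
    Rf eq' ep (fun i => dq i W) (fun i => dp i W) (hd f g) z ^ 2 ≤ 1 / 4 * sq4 W f g z := by
  rw [Rf_P hW hc, P_hd_x hW hf hg z hc, P_hd_y hW hf hg z hc]
  unfold sq4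
  generalize (fx n).P (fun _ => 0) W f z = a
  generalize (fy n).P (fun _ => 0) W g z = b
  generalize (fy n).P (fun _ => 0) W f z = c
  generalize (fx n).P (fun _ => 0) W g z = d
  nlinarith [sq_nonneg (a + d), sq_nonneg (c + b), sq_nonneg (a + c),
      sq_nonneg (a - b), sq_nonneg (d - c), sq_nonneg (d + b)]

end

section sc

variable {C0 cl ε δ c4 K N E q h Q G Fy Fx Py Px q4 u2 v2 y2 b c R gqz ff x2 f g V dB
    Sxf Sxg Syf Syg k5 S P : ℝ}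

theorem sc1 (hk3 : 12 ≤ ε * K) (hq : 0 < q) (px2 : 0 ≤ x2) (pYY : 0 ≤ y2) :
    12 * (x2 / q * y2) ≤ ε * (x2 * (K * (y2 / q))) := by
  have h1 : 0 ≤ x2 * (y2 / q) := by positivity
  have h2 := mul_le_mul_of_nonneg_right hk3 h1
  calc 12 * (x2 / q * y2) = 12 * (x2 * (y2 / q)) := by ring
    _ ≤ ε * K * (x2 * (y2 / q)) := h2
    _ = _ := by ring

theorem sc2 (hδ : 0 < δ) (hd2 : 2 * δ ≤ ε / 2) (px2 : 0 ≤ x2) (ps4 : 0 ≤ q4)
    (hR : R ^ 2 ≤ 1 / 4 * q4) : 8 * δ * (x2 * R ^ 2) ≤ ε / 2 * (x2 * q4) := by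
  have h1 := mul_le_mul_of_nonneg_left hR (by positivity : 0 ≤ 8 * δ * x2)
  have h2 := mul_le_mul_of_nonneg_right hd2 (by positivity : 0 ≤ x2 * q4)
  linarith

theorem sc3 (hδ : 0 < δ) (hC : 1 ≤ C0) (hc4e : c4 = 16 * C0 / δ) (hE : 0 < E)
    (hq : 0 < q) (px2 : 0 ≤ x2) (hS : 0 ≤ S)
    (hVt : (N + E * q) ^ 2 ≤ 2 * h * (E * q) ^ 2)
    (hV : V ^ 2 ≤ C0 * (N + E * q) ^ 2 / 4 * S) :
    32 / δ * (x2 / (E * q) ^ 2 * V ^ 2) ≤ c4 * (x2 * h) * S := by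
  have h1 : V ^ 2 ≤ C0 / 2 * h * S * (E * q) ^ 2 := by
    refine hV.trans ?_
    have h2 := mul_le_mul_of_nonneg_left hVt (by positivity : 0 ≤ C0 / 4 * S)
    linarith
  have h3 := mul_le_mul_of_nonneg_left h1
    (by positivity : 0 ≤ 32 / δ * (x2 / (E * q) ^ 2))
  have h4 : 32 / δ * (x2 / (E * q) ^ 2) * (C0 / 2 * h * S * (E * q) ^ 2) =
      c4 * (x2 * h) * S := by
    rw [hc4e]; field_simp; ring
  linarith

theorem sc4 (hδ : 0 < δ) (hE : 0 < E) (hq : 0 < q) (px2 : 0 ≤ x2) (hdd : c ^ 2 ≤ 1 / 2 * ff)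
    (hwd : dB ^ 2 ≤ C0 * (K ^ 2 + E * (E * q))) :
    32 / δ * (x2 / (E * q) ^ 2 * dB ^ 2 * c ^ 2) ≤
      1 / 2 * (32 / δ * (C0 * (K ^ 2 + E * (E * q))) / (E * q) ^ 2) * (x2 * ff) := by
  have h1 := mul_le_mul hwd hdd (sq_nonneg _) ((sq_nonneg _).trans hwd)
  have h3 := mul_le_mul_of_nonneg_left h1
    (by positivity : 0 ≤ 32 / δ * (x2 / (E * q) ^ 2))
  refine le_trans (le_of_eq ?_) (h3.trans (le_of_eq ?_)) <;> ring

theorem sc5 (hq : 0 < q) (hG0 : 0 ≤ G) (hgq : gqz ≤ G) (hbb : b ^ 2 ≤ 1 / 2 * ff) :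
    1032 * (gqz / q * b ^ 2) ≤ 516 / q * (G * ff) := by
  have h1 : gqz * b ^ 2 ≤ G * (1 / 2 * ff) := by
    refine (mul_le_mul_of_nonneg_right hgq (sq_nonneg _)).trans ?_
    exact mul_le_mul_of_nonneg_left hbb hG0
  have h3 := mul_le_mul_of_nonneg_left h1 (by positivity : 0 ≤ 1032 / q)
  refine le_trans (le_of_eq ?_) (h3.trans (le_of_eq ?_)) <;> ring

theorem sc6 (hε : 0 < ε) (hc4 : 0 < c4) : c4 * (ε / (2 * c4) * (x2 * P ^ 2) +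
    1 / (ε / (2 * c4)) * (x2 * h ^ 2) * f ^ 2 + 8 * (x2 * h * (C0 * Q)) * f ^ 2 +
    (16 * h * (2 * G) + 4 * (16 * C0) * (x2 * h)) * f ^ 2) =
    ε / 2 * (x2 * P ^ 2) + 2 * c4 ^ 2 / ε * h ^ 2 * (x2 * f ^ 2) +
    8 * c4 * C0 * h * Q * (x2 * f ^ 2) + 32 * c4 * h * (G * f ^ 2) +
    64 * c4 * C0 * h * (x2 * f ^ 2) := by
  field_simp
  ring

theorem sc7 (hc4 : 0 < c4) (hh0 : 0 < h) (hC : 1 ≤ C0) (px2 : 0 ≤ x2) (pU : 0 ≤ u2) (pV : 0 ≤ v2)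
    (hh : 256 * c4 * C0 * h ≤ ε * K) :
    2 * c4 * h * (x2 * (u2 + v2)) ≤ ε * K * (x2 * (u2 + v2)) := by
  refine mul_le_mul_of_nonneg_right ?_ (by positivity)
  have : 2 * c4 * h ≤ 256 * c4 * C0 * h := by
    have h1 : 0 ≤ c4 * h := by positivity
    nlinarith [mul_nonneg h1 (sub_nonneg.2 hC)]
  linarith

/-- Scalar assembly. -/
theorem ab_sc (hε : 0 < ε) (hδ : 0 < δ) (hC : 1 ≤ C0)
    (hc4e : c4 = 16 * C0 / δ) (hd2 : 2 * δ ≤ ε / 2) (hk3 : 12 ≤ ε * K) (hE : 0 < E)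
    (hq : 0 < q) (hh0 : 0 < h) (hG0 : 0 ≤ G) (px2 : 0 ≤ x2) (pff : 0 ≤ ff)
    (hff : f ^ 2 + g ^ 2 = ff) (pYY : 0 ≤ y2) (pU : 0 ≤ u2) (pV : 0 ≤ v2) (ps4 : 0 ≤ q4)
    (pSxf : 0 ≤ Sxf) (pSxg : 0 ≤ Sxg) (pSyf : 0 ≤ Syf) (pSyg : 0 ≤ Syg)
    (hVt : (N + E * q) ^ 2 ≤ 2 * h * (E * q) ^ 2)
    (hh : 256 * c4 * C0 * h ≤ ε * K)
    (hZ : 16 * c4 * C0 * h * Q + 2 * c4 ^ 2 / ε * h ^ 2 + 64 * c4 * C0 * h +
      1 / 2 * (32 / δ * (C0 * (K ^ 2 + E * (E * q))) / (E * q) ^ 2) ≤ ε * K * Q)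
    (hG : 32 * c4 * h + 516 / q ≤ k5)
    (hR : R ^ 2 ≤ 1 / 4 * q4) (hbb : b ^ 2 ≤ 1 / 2 * ff) (hdd : c ^ 2 ≤ 1 / 2 * ff)
    (hgq : gqz ≤ G) (hwd : dB ^ 2 ≤ C0 * (K ^ 2 + E * (E * q)))
    (hV : V ^ 2 ≤ C0 * (N + E * q) ^ 2 / 4 * (Sxf + Sxg + Syf + Syg))
    (hs4 : Py ^ 2 + Px ^ 2 ≤ q4)
    (ox : Sxf ≤ 2 * u2 + 8 * (C0 * Q) * f ^ 2) (oy : Syg ≤ 2 * v2 + 8 * (C0 * Q) * g ^ 2)
    (ey1 : x2 * h * Syf + 2 * Fy ≤
      ε / (2 * c4) * (x2 * Py ^ 2) + 1 / (ε / (2 * c4)) * (x2 * h ^ 2) * f ^ 2 +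
      8 * (x2 * h * (C0 * Q)) * f ^ 2 +
      (16 * h * (2 * G) + 4 * (16 * C0) * (x2 * h)) * f ^ 2)
    (ex1 : x2 * h * Sxg + 2 * Fx ≤
      ε / (2 * c4) * (x2 * Px ^ 2) + 1 / (ε / (2 * c4)) * (x2 * h ^ 2) * g ^ 2 +
      8 * (x2 * h * (C0 * Q)) * g ^ 2 +
      (16 * h * (2 * G) + 4 * (16 * C0) * (x2 * h)) * g ^ 2) :
    12 * (x2 / q * y2) + 8 * δ * (x2 * R ^ 2) + 32 / δ * (x2 / (E * q) ^ 2 * V ^ 2) +
      32 / δ * (x2 / (E * q) ^ 2 * dB ^ 2 * c ^ 2) + 1032 * (gqz / q * b ^ 2) +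
      2 * c4 * Fy + 2 * c4 * Fx ≤
    ε * (x2 * (K * (u2 + v2 + y2 / q + Q * ff) + q4)) + k5 * (G * ff) := by
  have hc4 : 0 < c4 := by rw [hc4e]; positivity
  have t1 := sc1 hk3 hq px2 pYY
  have t2 := sc2 hδ hd2 px2 ps4 hR
  have t3 := sc3 (S := Sxf + Sxg + Syf + Syg) hδ hC hc4e hE hq px2 (by positivity) hVt hV
  have t4 := sc4 hδ hE hq px2 hdd hwd
  have t5 := sc5 hq hG0 hgq hbb
  have t6 := mul_le_mul_of_nonneg_left ey1 hc4.le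
  have t7 := mul_le_mul_of_nonneg_left ex1 hc4.le
  rw [sc6 hε hc4] at t6 t7
  have t8 := mul_le_mul_of_nonneg_left ox (by positivity : 0 ≤ c4 * (x2 * h))
  have t9 := mul_le_mul_of_nonneg_left oy (by positivity : 0 ≤ c4 * (x2 * h))
  have s1 := mul_le_mul_of_nonneg_left hs4 (by positivity : 0 ≤ ε / 2 * x2)
  have s3 := sc7 hc4 hh0 hC px2 pU pV hh
  have s4 := mul_le_mul_of_nonneg_right hZ (by positivity : 0 ≤ x2 * ff)
  have s5 := mul_le_mul_of_nonneg_right hG (by positivity : 0 ≤ G * ff)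
  have f1 : x2 * g ^ 2 = x2 * ff - x2 * f ^ 2 := by rw [← hff]; ring
  have f2 : G * g ^ 2 = G * ff - G * f ^ 2 := by rw [← hff]; ring
  have f3 : g ^ 2 = ff - f ^ 2 := by rw [← hff]; ring
  rw [f1, f2] at t7
  rw [f3] at t9
  clear ey1 ex1 hVt hh hZ hG hR hbb hdd hgq hwd hV hs4 ox oy hff
  linarith only [t1, t2, t3, t4, t5, t6, t7, t8, t9, s1, s3, s4, s5]

end sc

/-- The density of the right side, first part. -/
def G1 (W N K E χ f g : VV n → ℝ) (z : VV n) : ℝ :=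
  χ z ^ 2 * (K z * (zz W f g z + s2 (Yv W f g z) / qq z +
    (N z ^ 2 + E z * (E z * qq z)) * (f z ^ 2 + g z ^ 2)) + sq4 W f g z)

/-- Second part. -/
def G2 (N K E χ f g : VV n → ℝ) (z : VV n) : ℝ :=
  (gq χ z + gp χ z) * (E z / K z + N z ^ 2 / K z ^ 2) * (f z ^ 2 + g z ^ 2)

theorem hb2 (f g : VV n → ℝ) (z : VV n) : hb f g z ^ 2 ≤ 1 / 2 * (f z ^ 2 + g z ^ 2) := by
  unfold hb; nlinarith [sq_nonneg (f z - g z)]

theorem hd2' (f g : VV n → ℝ) (z : VV n) : hd f g z ^ 2 ≤ 1 / 2 * (f z ^ 2 + g z ^ 2) := by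
  unfold hd; nlinarith [sq_nonneg (f z + g z)]

theorem q4_ge (W f g : VV n → ℝ) (z : VV n) :
    (fy n).P (fun _ => 0) W f z ^ 2 + (fx n).P (fun _ => 0) W g z ^ 2 ≤ sq4 W f g z := by
  unfold sq4
  nlinarith [sq_nonneg ((fx n).P (fun _ => 0) W f z), sq_nonneg ((fy n).P (fun _ => 0) W g z)]

theorem Dq_eq (χ : VV n → ℝ) (z : VV n) : Dq eq' lq χ z = gq χ z / qq z := by
  unfold Dq gq
  simp only [fd_q]
  rfl

theorem G_ge (χ : VV n → ℝ) (z : VV n) : 0 ≤ gq χ z ∧ 0 ≤ gp χ z :=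
  ⟨Finset.sum_nonneg fun _ _ => sq_nonneg _, Finset.sum_nonneg fun _ _ => sq_nonneg _⟩

section ens

variable {C0 cl ε δ c4 K0 : ℝ} {W N K E χ f g : VV n → ℝ} {z : VV n}

/-- Energy in the `y` slot. -/
theorem en_y (k : Ks C0 cl ε δ c4 K0) (hW : ContDiff ℝ ∞ W) (hN : ContDiff ℝ ∞ N)
    (hK : ContDiff ℝ ∞ K) (hχ : ContDiff ℝ ∞ χ) (hf : ContDiff ℝ ∞ f)
    (H : Hz C0 cl K0 W N K E z) {κ : ℝ} (hκ : 0 < κ) :
    χ z ^ 2 * (1 + N z ^ 2 / (cl * K z) ^ 2) * ∑ i, Xd (ey i) W f z ^ 2 +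
      2 * Fe ey W (mw cl N K χ) f z ≤
    κ * (χ z ^ 2 * (fy n).P (fun _ => 0) W f z ^ 2) +
      1 / κ * (χ z ^ 2 * (1 + N z ^ 2 / (cl * K z) ^ 2) ^ 2) * f z ^ 2 +
      8 * (χ z ^ 2 * (1 + N z ^ 2 / (cl * K z) ^ 2) *
        (C0 * (N z ^ 2 + E z * (E z * qq z)))) * f z ^ 2 +
      (16 * (1 + N z ^ 2 / (cl * K z) ^ 2) * (2 * (gq χ z + gp χ z)) +
        4 * (16 * C0) * (χ z ^ 2 * (1 + N z ^ 2 / (cl * K z) ^ 2))) * f z ^ 2 := by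
  have hK1 := nm_K k H.nm
  have hN1 := nm_N k H.nm
  have hcl := k.lp
  have hC : 1 ≤ C0 := k.c0
  have hkc : cl * K z ≠ 0 := by positivity
  have hmz : mw cl N K χ z = χ z ^ 2 * (1 + N z ^ 2 / (cl * K z) ^ 2) := by
    unfold mw; ring
  have hdy := hd_pt (Ni := fun i => dy i N z) (Ki := fun i => dy i K z) (N := N z) (K := K z)
    (by linarith) (by linarith) hcl (by linarith) H.ny H.ky
  have e1 := en_pt (x := χ z) (f := f z) (P := (fy n).P (fun _ => 0) W f z)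
    (Y := fun i => Xd (ey i) W f z) (w := fun i => dy i W z) (dx := fun i => dy i χ z)
    (by positivity : 0 < 1 + N z ^ 2 / (cl * K z) ^ 2) hκ (ga_le χ z).2 hdy H.wy
  refine le_trans (le_of_eq ?_) e1
  congr 2
  unfold Fe
  rw [P_y hW hf, hmz]
  simp only [fd_mw hN hK hχ hkc, fd_y]

/-- Energy in the `x` slot. -/
theorem en_x (k : Ks C0 cl ε δ c4 K0) (hW : ContDiff ℝ ∞ W) (hN : ContDiff ℝ ∞ N)
    (hK : ContDiff ℝ ∞ K) (hχ : ContDiff ℝ ∞ χ) (hf : ContDiff ℝ ∞ f)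
    (H : Hz C0 cl K0 W N K E z) {κ : ℝ} (hκ : 0 < κ) :
    χ z ^ 2 * (1 + N z ^ 2 / (cl * K z) ^ 2) * ∑ i, Xd (ex i) W f z ^ 2 +
      2 * Fe ex W (mw cl N K χ) f z ≤
    κ * (χ z ^ 2 * (fx n).P (fun _ => 0) W f z ^ 2) +
      1 / κ * (χ z ^ 2 * (1 + N z ^ 2 / (cl * K z) ^ 2) ^ 2) * f z ^ 2 +
      8 * (χ z ^ 2 * (1 + N z ^ 2 / (cl * K z) ^ 2) *
        (C0 * (N z ^ 2 + E z * (E z * qq z)))) * f z ^ 2 +
      (16 * (1 + N z ^ 2 / (cl * K z) ^ 2) * (2 * (gq χ z + gp χ z)) +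
        4 * (16 * C0) * (χ z ^ 2 * (1 + N z ^ 2 / (cl * K z) ^ 2))) * f z ^ 2 := by
  have hK1 := nm_K k H.nm
  have hN1 := nm_N k H.nm
  have hcl := k.lp
  have hC : 1 ≤ C0 := k.c0
  have hkc : cl * K z ≠ 0 := by positivity
  have hmz : mw cl N K χ z = χ z ^ 2 * (1 + N z ^ 2 / (cl * K z) ^ 2) := by
    unfold mw; ring
  have hdy := hd_pt (Ni := fun i => dx i N z) (Ki := fun i => dx i K z) (N := N z) (K := K z)
    (by linarith) (by linarith) hcl (by linarith) H.nx H.kx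
  have e1 := en_pt (x := χ z) (f := f z) (P := (fx n).P (fun _ => 0) W f z)
    (Y := fun i => Xd (ex i) W f z) (w := fun i => dx i W z) (dx := fun i => dx i χ z)
    (by positivity : 0 < 1 + N z ^ 2 / (cl * K z) ^ 2) hκ (ga_le χ z).1 hdy H.wx
  refine le_trans (le_of_eq ?_) e1
  congr 2
  unfold Fe
  rw [P_x hW hf, hmz]
  simp only [fd_mw hN hK hχ hkc, fd_x]

theorem own_x (H : Hz C0 cl K0 W N K E z) (f : VV n → ℝ) :
    ∑ i, Xd (ex i) W f z ^ 2 ≤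
      2 * s2 (Uu W f z) + 8 * (C0 * (N z ^ 2 + E z * (E z * qq z))) * f z ^ 2 := by
  refine le_trans (le_of_eq ?_) (own_pt (f := f z) (U := Uu W f z) H.wx)
  refine Finset.sum_congr rfl fun i _ => ?_
  unfold Xd Uu
  rw [fd_x, fd_x]; ring

theorem own_y (H : Hz C0 cl K0 W N K E z) (g : VV n → ℝ) :
    ∑ i, Xd (ey i) W g z ^ 2 ≤
      2 * s2 (Uv W g z) + 8 * (C0 * (N z ^ 2 + E z * (E z * qq z))) * g z ^ 2 := by
  refine le_trans (le_of_eq ?_) (own_pt (f := g z) (U := Uv W g z) H.wy)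
  refine Finset.sum_congr rfl fun i _ => ?_
  unfold Xd Uv
  rw [fd_y, fd_y]; ring

end ens

theorem s2_nn (v : V n) : 0 ≤ s2 v := Finset.sum_nonneg fun _ _ => sq_nonneg _

/-- The pointwise inequality. -/
theorem ab_pt {C0 cl ε δ c4 K0 : ℝ} (k : Ks C0 cl ε δ c4 K0) {W N K E χ f g : VV n → ℝ}
    (hW : ContDiff ℝ ∞ W) (hN : ContDiff ℝ ∞ N) (hK : ContDiff ℝ ∞ K) (hχ : ContDiff ℝ ∞ χ)
    (hf : ContDiff ℝ ∞ f) (hg : ContDiff ℝ ∞ g) (hc : ContDiff ℝ ∞ (hd f g)) {z : VV n}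
    (H : Hz C0 cl K0 W N K E z) :
    12 * (χ z ^ 2 / r2 lq z *
        YY eq' ep (fun i => dq i W) (fun i => dp i W) (hb f g) (hd f g) z) +
      8 * δ * (χ z ^ 2 * Rf eq' ep (fun i => dq i W) (fun i => dp i W) (hd f g) z ^ 2) +
      32 / δ * (χ z ^ 2 / (E z * r2 lq z) ^ 2 *
        Vf eq' (fun i => dq i W) (fun i => dp i W) (hd f g) z ^ 2) +
      32 / δ * (χ z ^ 2 / (E z * r2 lq z) ^ 2 *
        (∑ i, fderiv ℝ (dp i W) z (eq' i)) ^ 2 * hd f g z ^ 2) +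
      1032 * (Dq eq' lq χ z * hb f g z ^ 2) +
      2 * c4 * Fe ey W (mw cl N K χ) f z + 2 * c4 * Fe ex W (mw cl N K χ) g z ≤
    ε * G1 W N K E χ f g z +
      (32 * c4 * (C0 ^ 2 + 1 / cl ^ 2) + 516 / cl) * G2 N K E χ f g z := by
  have m := H.nm
  have hε := k.e
  have hc4 : 0 < c4 := by rw [k.cc]; have := k.c0; have := k.d; positivity
  have hκ : 0 < ε / (2 * c4) := by positivity
  have hK1 := nm_K k m
  have hcl := k.lp
  have hh0 : 0 < 1 + N z ^ 2 / (cl * K z) ^ 2 := by positivity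
  have hk3 : 12 ≤ ε * K z := by
    have := k.k3.trans m.kk
    rw [div_le_iff₀ hε] at this
    linarith
  have hdB : ∑ i, fderiv ℝ (dp i W) z (eq' i) = ∑ i, dq i (dp i W) z :=
    Finset.sum_congr rfl fun i _ => fd_q i _ z
  have hV := V_pt (a := fun i => Xd (ex i) W f z) (b := fun i => Xd (ex i) W g z)
    (c := fun i => Xd (ey i) W f z) (d := fun i => Xd (ey i) W g z) H.wp
  rw [YY_eq hf hg, Vf_eq hf hg, r2_lq, hdB, Dq_eq]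
  have key := ab_sc (f := f z) (g := g z) (y2 := s2 (Yv W f g z)) (u2 := s2 (Uu W f z))
    (v2 := s2 (Uv W g z)) hε k.d k.c0 k.cc k.d2 hk3 m.ep (nm_r k m) hh0
    (add_nonneg (G_ge χ z).1 (G_ge χ z).2) (sq_nonneg (χ z)) (by positivity) rfl
    (s2_nn _) (s2_nn _) (s2_nn _)
    (le_trans (by positivity) (q4_ge W f g z))
    (Finset.sum_nonneg fun _ _ => sq_nonneg _) (Finset.sum_nonneg fun _ _ => sq_nonneg _)
    (Finset.sum_nonneg fun _ _ => sq_nonneg _) (Finset.sum_nonneg fun _ _ => sq_nonneg _)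
    (nm_Vt k m) (nm_h k m) (nm_Z k m) (nm_G k m) (Rf_sq hW hf hg z hc) (hb2 f g z) (hd2' f g z)
    (le_add_of_nonneg_right (G_ge χ z).2) H.wd hV (q4_ge W f g z) (own_x H f) (own_y H g)
    (en_y k hW hN hK hχ hf H hκ) (en_x k hW hN hK hχ hg H hκ)
  refine key.trans (le_of_eq ?_)
  unfold G1 G2 zz
  ring

end Vale.Agent.P088.R2.H591.C
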