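import Vale.Agent.P088.R2.H591.C.AB5

/-!
# P088, stage 3, zone C: the row AB, part 6: the general theorem
-/

open MeasureTheory Set Filter
open scoped ContDiff Topology

noncomputable section

namespace Vale.Agent.P088.R2.H591.C

open Vale.Agent.P088.LR Vale.Agent.P088.HY
open Vale.Agent.P088.R2.H961.GW
open Vale.Agent.P088.R2.H644 Vale.Agent.P088.R2.H644.Ch
open Vale.Agent.P088.R2.H205.C
open Vale.Agent.P088.R2.H960.C (YY Yi Ts r2)

variable {n : ℕ}

section te

variable {W f g : VV n → ℝ}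

theorem dx_cd (hf : ContDiff ℝ ∞ f) (i : Fin n) : ContDiff ℝ ∞ (dx i f) := fd_cd hf (ex i)

theorem dy_cd (hf : ContDiff ℝ ∞ f) (i : Fin n) : ContDiff ℝ ∞ (dy i f) := fd_cd hf (ey i)

theorem dq_cd (hf : ContDiff ℝ ∞ f) (i : Fin n) : ContDiff ℝ ∞ (dq i f) := by
  have : dq i f = fun z => fderiv ℝ f z (eq' i) := funext fun z => (fd_q i f z).symm
  rw [this]
  exact fd_cd hf _

theorem dp_cd (hf : ContDiff ℝ ∞ f) (i : Fin n) : ContDiff ℝ ∞ (dp i f) := by
  have : dp i f = fun z => fderiv ℝ f z (ep i) := funext fun z => (fd_p i f z).symm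
  rw [this]
  exact fd_cd hf _

theorem te_hb (hf : Te univ f) (hg : Te univ g) : Te univ (hb f g) :=
  ((hf.add isOpen_univ hg).cmul isOpen_univ (1 / 2)).congr fun z => by unfold hb; ring

theorem te_hd (hf : Te univ f) (hg : Te univ g) : Te univ (hd f g) :=
  ((hf.sub isOpen_univ hg).cmul isOpen_univ (1 / 2)).congr fun z => by unfold hd; ring

theorem te_Uu (hW : ContDiff ℝ ∞ W) (hf : Te univ f) (i : Fin n) :
    Te univ fun z => Uu W f z i :=
  ((teL hf (dx_cd hW i)).sub isOpen_univ (hf.fd isOpen_univ (ex i))).congr fun z => by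
    unfold Uu; rw [fd_x]; ring

theorem te_Uv (hW : ContDiff ℝ ∞ W) (hf : Te univ f) (i : Fin n) :
    Te univ fun z => Uv W f z i :=
  ((teL hf (dy_cd hW i)).sub isOpen_univ (hf.fd isOpen_univ (ey i))).congr fun z => by
    unfold Uv; rw [fd_y]; ring

theorem te_s2 {v : Fin n → VV n → ℝ} (h : ∀ i, Te univ (v i)) :
    Te univ fun z => s2 fun i => v i z :=
  Te.sum isOpen_univ _ fun i _ => (h i).sq isOpen_univ

theorem te_Y (hW : ContDiff ℝ ∞ W) (hf : Te univ f) (hg : Te univ g) :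
    Te univ fun z => s2 (Yv W f g z) :=
  te_s2 (v := fun i z => Yv W f g z i) fun i => (te_Uu hW hf i).sub isOpen_univ (te_Uv hW hg i)

theorem te_zz (hW : ContDiff ℝ ∞ W) (hf : Te univ f) (hg : Te univ g) :
    Te univ (zz W f g) :=
  (te_s2 fun i => te_Uu hW hf i).add isOpen_univ (te_s2 fun i => te_Uv hW hg i)

theorem te_Px (hW : ContDiff ℝ ∞ W) (hf : Te univ f) : Te univ ((fx n).P (fun _ => 0) W f) :=
  (Te.sum isOpen_univ Finset.univ fun i _ => te_Xd hW (te_Xd hW hf (ex i)) (ex i)).congr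
    fun z => P_x hW hf.1 z

theorem te_Py (hW : ContDiff ℝ ∞ W) (hf : Te univ f) : Te univ ((fy n).P (fun _ => 0) W f) :=
  (Te.sum isOpen_univ Finset.univ fun i _ => te_Xd hW (te_Xd hW hf (ey i)) (ey i)).congr
    fun z => P_y hW hf.1 z

theorem te_q4 (hW : ContDiff ℝ ∞ W) (hf : Te univ f) (hg : Te univ g) :
    Te univ (sq4 W f g) := by
  have o := isOpen_univ (X := VV n)
  exact ((((te_Px hW hf).sq o).add o ((te_Py hW hg).sq o)).add o ((te_Py hW hf).sq o)).add o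
    ((te_Px hW hg).sq o)

theorem te_ff (hf : Te univ f) (hg : Te univ g) : Te univ fun z => f z ^ 2 + g z ^ 2 :=
  (hf.sq isOpen_univ).add isOpen_univ (hg.sq isOpen_univ)

end te

/-- A quotient with a support condition. -/
theorem cd_q {χ F G : VV n → ℝ} (hF : ContDiff ℝ ∞ F) (hG : ContDiff ℝ ∞ G)
    (hs : ∀ z ∉ tsupport χ, F z = 0) (h : ∀ z ∈ tsupport χ, G z ≠ 0) :
    ContDiff ℝ ∞ fun z => F z / G z := by
  refine cd_div hF hG fun z hz => h z ?_
  refine closure_minimal (fun y hy => ?_) (isClosed_tsupport χ) hz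
  by_contra hc
  exact hy (hs y hc)

section main

variable {C0 cl ε δ c4 K0 : ℝ} {W N K E χ f g : VV n → ℝ}

theorem gg_off {z : VV n} (hz : z ∉ tsupport χ) : gq χ z + gp χ z = 0 := by
  have h1 : ∀ i, dx i χ z = 0 := fun i => fderiv_off hz (ex i)
  have h2 : ∀ i, dy i χ z = 0 := fun i => fderiv_off hz (ey i)
  unfold gq gp dq dp
  simp [h1, h2]

theorem gg_cd (hχ : ContDiff ℝ ∞ χ) : ContDiff ℝ ∞ fun z => gq χ z + gp χ z :=
  (ContDiff.sum fun i _ => (dq_cd hχ i).pow 2).add (ContDiff.sum fun i _ => (dp_cd hχ i).pow 2)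

theorem te_G1 (hW : ContDiff ℝ ∞ W) (hN : ContDiff ℝ ∞ N) (hK : ContDiff ℝ ∞ K)
    (hE : ContDiff ℝ ∞ E) (hχ : ContDiff ℝ ∞ χ) (hf : Te univ f) (hg : Te univ g)
    (hq : ∀ z ∈ tsupport χ, qq z ≠ 0) : Te univ (G1 W N K E χ f g) := by
  have o := isOpen_univ (X := VV n)
  have c1 : ContDiff ℝ ∞ fun z => χ z ^ 2 / qq z :=
    cd_q (χ := χ) (hχ.pow 2) contDiff_qq
      (fun z hz => by rw [image_eq_zero_of_notMem_tsupport hz]; norm_num) hq
  have a1 := teL (te_zz hW hf hg) ((hχ.pow 2).mul hK)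
  have a2 := teL (te_Y hW hf hg) (c1.mul hK)
  have a3 := teL (te_ff hf hg) (((hχ.pow 2).mul hK).mul ((hN.pow 2).add (hE.mul (hE.mul contDiff_qq))))
  have a4 := teL (te_q4 hW hf hg) (hχ.pow 2)
  refine (((a1.add o a2).add o a3).add o a4).congr fun z => ?_
  unfold G1
  ring

theorem te_G2 (hN : ContDiff ℝ ∞ N) (hK : ContDiff ℝ ∞ K)
    (hE : ContDiff ℝ ∞ E) (hχ : ContDiff ℝ ∞ χ) (hf : Te univ f) (hg : Te univ g)
    (hk : ∀ z ∈ tsupport χ, K z ≠ 0) : Te univ (G2 N K E χ f g) := by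
  have o := isOpen_univ (X := VV n)
  have c1 : ContDiff ℝ ∞ fun z => ((gq χ z + gp χ z) * E z) / K z :=
    cd_q (χ := χ) ((gg_cd hχ).mul hE) hK (fun z hz => by rw [gg_off hz, zero_mul]) hk
  have c2 : ContDiff ℝ ∞ fun z => ((gq χ z + gp χ z) * N z ^ 2) / K z ^ 2 :=
    cd_q (χ := χ) ((gg_cd hχ).mul (hN.pow 2)) (hK.pow 2)
      (fun z hz => by rw [gg_off hz, zero_mul]) (fun z hz => pow_ne_zero _ (hk z hz))
  refine (teL (te_ff hf hg) (c1.add c2)).congr fun z => ?_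
  unfold G2
  ring

theorem lin7 {F1 F2 F3 F4 F5 F6 F7 J1 J2 : VV n → ℝ} {a1 a2 a3 a4 a5 a6 a7 b1 b2 : ℝ}
    (h1 : Integrable F1) (h2 : Integrable F2) (h3 : Integrable F3) (h4 : Integrable F4)
    (h5 : Integrable F5) (h6 : Integrable F6) (h7 : Integrable F7) (j1 : Integrable J1)
    (j2 : Integrable J2)
    (h : ∀ z, a1 * F1 z + a2 * F2 z + a3 * F3 z + a4 * F4 z + a5 * F5 z + a6 * F6 z + a7 * F7 z ≤
      b1 * J1 z + b2 * J2 z) :
    a1 * (∫ z, F1 z) + a2 * (∫ z, F2 z) + a3 * (∫ z, F3 z) + a4 * (∫ z, F4 z) +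
      a5 * (∫ z, F5 z) + a6 * (∫ z, F6 z) + a7 * (∫ z, F7 z) ≤
      b1 * (∫ z, J1 z) + b2 * ∫ z, J2 z := by
  have k1 := h1.const_mul a1
  have k2 := h2.const_mul a2
  have k3 := h3.const_mul a3
  have k4 := h4.const_mul a4
  have k5 := h5.const_mul a5
  have k6 := h6.const_mul a6
  have k7 := h7.const_mul a7
  have l1 := j1.const_mul b1
  have l2 := j2.const_mul b2
  have s2 := k1.add k2
  have s3 := s2.add k3
  have s4 := s3.add k4
  have s5 := s4.add k5
  have s6 := s5.add k6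
  have s7 := s6.add k7
  have e := integral_mono s7 (l1.add l2) h
  rw [integral_add' l1 l2, integral_add' s6 k7, integral_add' s5 k6, integral_add' s4 k5,
    integral_add' s3 k4, integral_add' s2 k3, integral_add' k1 k2] at e
  simpa only [integral_const_mul] using e

/-- **General form of the row AB.** -/
theorem ab_gen (hn : 2 ≤ n) (k : Ks C0 cl ε δ c4 K0) (hW : ContDiff ℝ ∞ W)
    (hN : ContDiff ℝ ∞ N) (hK : ContDiff ℝ ∞ K) (hE : ContDiff ℝ ∞ E) (hχ : ContDiff ℝ ∞ χ)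
    (hE0 : ∀ z, 0 < E z) (hE1 : ∀ z i, dq i E z = 0) (hf : Te univ f) (hg : Te univ g)
    (H : ∀ z ∈ tsupport χ, Hz C0 cl K0 W N K E z) :
    ∫ z, χ z ^ 2 * E z ^ 2 * hb f g z ^ 2 ≤ ε * (∫ z, G1 W N K E χ f g z) +
      (32 * c4 * (C0 ^ 2 + 1 / cl ^ 2) + 516 / cl) * ∫ z, G2 N K E χ f g z := by
  have := haar_VV (n := n)
  have o := isOpen_univ (X := VV n)
  have hcl := k.lp
  have hδ := k.d
  have tb := te_hb hf hg
  have tc := te_hd hf hg
  have hqp : ∀ z ∈ tsupport χ, 0 < qq z := fun z hz => nm_r k (H z hz).nm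
  have hKp : ∀ z ∈ tsupport χ, 0 < K z := fun z hz => by
    have := nm_K k (H z hz).nm; linarith
  have hχoff : ∀ z, z ∉ tsupport χ → χ z = 0 := fun z hz => image_eq_zero_of_notMem_tsupport hz
  have hA : ∀ i : Fin n, ContDiff ℝ ∞ (dq i W) := fun i => dq_cd hW i
  have hB : ∀ i : Fin n, ContDiff ℝ ∞ (dp i W) := fun i => dp_cd hW i
  have key := a34i (μ := (volume : Measure (VV n))) (by simpa using hn) (α := eq') (β := ep)
    (lq := lq) lq_eq (A := fun i => dq i W) (B := fun i => dp i W) hA hB hE hE0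
    (fun z i => by rw [fd_q]; exact hE1 z i) hχ hδ k.d1
    (fun z hz => by
      rw [r2_lq]
      have h1 := (H z hz).nm.tk
      have h2 := k.k7.trans (H z hz).nm.kk
      rw [div_le_iff₀ (by positivity)] at h2
      rw [div_le_iff₀ hδ]
      nlinarith)
    (fun z hz => by rw [r2_lq]; exact (H z hz).wq) ⟨tb.1, tb.2.1⟩ ⟨tc.1, tc.2.1⟩
  have hm : ContDiff ℝ ∞ (mw cl N K χ) :=
    cont_diff_mw hN hK hχ fun z hz => by have := hKp z hz; positivity
  have iy := int_Fe hW hm hf ey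
  have ix := int_Fe hW hm hg ex
  -- integrability
  have c1 : ContDiff ℝ ∞ fun z => χ z ^ 2 / r2 lq z :=
    cd_q (χ := χ) (hχ.pow 2) (r2_cd lq) (fun z hz => by rw [hχoff z hz]; norm_num)
      (fun z hz => (hqp z hz).ne')
  have c2 : ContDiff ℝ ∞ fun z => χ z ^ 2 / (E z * r2 lq z) ^ 2 :=
    cd_q (χ := χ) (hχ.pow 2) ((hE.mul (r2_cd lq)).pow 2)
      (fun z hz => by rw [hχoff z hz]; norm_num)
      (fun z hz => pow_ne_zero _ (mul_pos (hE0 z) (hqp z hz)).ne')
  have c3 : ContDiff ℝ ∞ (Dq eq' lq χ) := by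
    have : Dq eq' lq χ = fun z => gq χ z / qq z := funext fun z => Dq_eq χ z
    rw [this]
    refine cd_q (χ := χ) (ContDiff.sum fun i _ => (dq_cd hχ i).pow 2) contDiff_qq
      (fun z hz => ?_) (fun z hz => (hqp z hz).ne')
    have h1 := gg_off hz
    have h2 := G_ge χ z
    linarith
  have i1 : Integrable fun z => χ z ^ 2 / r2 lq z *
      YY eq' ep (fun i => dq i W) (fun i => dp i W) (hb f g) (hd f g) z :=
    te_i ((teL (te_Y hW hf hg) c1).congr fun z => by rw [YY_eq hf.1 hg.1])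
  have i2 : Integrable fun z => χ z ^ 2 *
      Rf eq' ep (fun i => dq i W) (fun i => dp i W) (hd f g) z ^ 2 :=
    te_i ((teL ((((te_Px hW tc).sub o (te_Py hW tc)).cmul o (1 / 2)).sq o) (hχ.pow 2)).congr
      fun z => by rw [Rf_P hW tc.1]; ring)
  have i3 : Integrable fun z => χ z ^ 2 / (E z * r2 lq z) ^ 2 *
      Vf eq' (fun i => dq i W) (fun i => dp i W) (hd f g) z ^ 2 := by
    have t : Te univ (Vf eq' (fun i => dq i W) (fun i => dp i W) (hd f g)) :=
      Te.sum o Finset.univ fun i _ => teL ((tc.fd o (eq' i)).add o (teL tc (hA i))) (hB i)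
    exact te_i (teL (t.sq o) c2)
  have i4 : Integrable fun z => χ z ^ 2 / (E z * r2 lq z) ^ 2 *
      (∑ i, fderiv ℝ (dp i W) z (eq' i)) ^ 2 * hd f g z ^ 2 :=
    te_i (teL (tc.sq o) (c2.mul ((ContDiff.sum fun i _ => fd_cd (hB i) (eq' i)).pow 2)))
  have i5 : Integrable fun z => Dq eq' lq χ z * hb f g z ^ 2 := te_i (teL (tb.sq o) c3)
  have i6 := te_i (te_Fe hW hm hf ey)
  have i7 := te_i (te_Fe hW hm hg ex)
  have j1 := te_i (te_G1 (f := f) (g := g) hW hN hK hE hχ hf hg fun z hz => (hqp z hz).ne')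
  have j2 := te_i (te_G2 (f := f) (g := g) hN hK hE hχ hf hg fun z hz => (hKp z hz).ne')
  have mono := lin7 (a1 := 12) (a2 := 8 * δ) (a3 := 32 / δ) (a4 := 32 / δ) (a5 := 1032)
    (a6 := 2 * c4) (a7 := 2 * c4) (b1 := ε)
    (b2 := 32 * c4 * (C0 ^ 2 + 1 / cl ^ 2) + 516 / cl) i1 i2 i3 i4 i5 i6 i7 j1 j2
    (fun z => by
      by_cases hz : z ∈ tsupport χ
      · exact ab_pt k hW hN hK hχ hf.1 hg.1 tc.1 (H z hz)
      · have h0 := hχoff z hz
        have h1 := gg_off hz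
        have h2 := G_ge χ z
        have h3 : gq χ z = 0 := by linarith
        have h4 : mw cl N K χ z = 0 := by unfold mw; rw [h0]; ring
        have h5 : ∀ v, fderiv ℝ (mw cl N K χ) z v = 0 := by
          intro v
          refine fderiv_off (fun h => hz (closure_mono (fun y hy => ?_) h)) v
          simp only [Function.mem_support] at hy ⊢
          intro hc
          exact hy (by unfold mw; rw [hc]; ring)
        have e1 : Fe ey W (mw cl N K χ) f z = 0 := by
          unfold Fe; simp [h4, h5]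
        have e2 : Fe ex W (mw cl N K χ) g z = 0 := by
          unfold Fe; simp [h4, h5]
        have e3 : G1 W N K E χ f g z = 0 := by unfold G1; rw [h0]; ring
        have e4 : G2 N K E χ f g z = 0 := by unfold G2; rw [h1]; ring
        rw [e1, e2, e3, e4, Dq_eq, h3, h0]
        simp)
  rw [iy, ix, mul_zero, add_zero, add_zero] at mono
  exact key.trans mono

end main

end Vale.Agent.P088.R2.H591.C
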