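import Mathlib

/-!
# P088, stage 3: a flat pair of cut-offs

`c1 = cos (π τ^M / 2)`, `c2 = sin (π τ^M / 2)`, `τ = Real.smoothTransition`: smooth,
`c1² + c2² = 1`, `|c2'|^M ≤ B c2^(M-1)` and, for `θ = c2²`, `|θ'|^M ≤ B θ^(M-1)`.
-/

open Set Filter
open scoped ContDiff Topology

noncomputable section

namespace Vale.Agent.P088.R2.H591.C

/-- first cut-off, `1` for `s ≤ 0`, `0` for `s ≥ 1` -/
def c1 (M : ℕ) (s : ℝ) : ℝ := Real.cos (Real.pi / 2 * Real.smoothTransition s ^ M)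

/-- second cut-off, `0` for `s ≤ 0`, `1` for `s ≥ 1` -/
def c2 (M : ℕ) (s : ℝ) : ℝ := Real.sin (Real.pi / 2 * Real.smoothTransition s ^ M)

theorem c12 (M : ℕ) (s : ℝ) : c1 M s ^ 2 + c2 M s ^ 2 = 1 := by
  unfold c1 c2
  have := Real.sin_sq_add_cos_sq (Real.pi / 2 * Real.smoothTransition s ^ M)
  linarith

theorem c1_cd (M : ℕ) : ContDiff ℝ ∞ (c1 M) :=
  Real.contDiff_cos.comp (contDiff_const.mul (Real.smoothTransition.contDiff.pow M))

theorem c2_cd (M : ℕ) : ContDiff ℝ ∞ (c2 M) :=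
  Real.contDiff_sin.comp (contDiff_const.mul (Real.smoothTransition.contDiff.pow M))

theorem c2_zero {M : ℕ} (hM : M ≠ 0) {s : ℝ} (hs : s ≤ 0) : c2 M s = 0 := by
  unfold c2
  rw [Real.smoothTransition.zero_of_nonpos hs, zero_pow hM]; simp

theorem c1_one {M : ℕ} (hM : M ≠ 0) {s : ℝ} (hs : s ≤ 0) : c1 M s = 1 := by
  unfold c1
  rw [Real.smoothTransition.zero_of_nonpos hs, zero_pow hM]; simp

theorem c2_one (M : ℕ) {s : ℝ} (hs : 1 ≤ s) : c2 M s = 1 := by
  unfold c2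
  rw [Real.smoothTransition.one_of_one_le hs, one_pow]; simp

theorem c1_zero (M : ℕ) {s : ℝ} (hs : 1 ≤ s) : c1 M s = 0 := by
  unfold c1
  rw [Real.smoothTransition.one_of_one_le hs, one_pow]; simp

theorem t01 (M : ℕ) (s : ℝ) :
    0 ≤ Real.smoothTransition s ^ M ∧ Real.smoothTransition s ^ M ≤ 1 :=
  ⟨pow_nonneg (Real.smoothTransition.nonneg s) M,
    pow_le_one₀ (Real.smoothTransition.nonneg s) (Real.smoothTransition.le_one s)⟩

theorem c2_nonneg (M : ℕ) (s : ℝ) : 0 ≤ c2 M s := by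
  obtain ⟨h0, h1⟩ := t01 M s
  have hp := Real.pi_pos
  refine Real.sin_nonneg_of_nonneg_of_le_pi (by positivity) ?_
  nlinarith

theorem c1_nonneg (M : ℕ) (s : ℝ) : 0 ≤ c1 M s := by
  obtain ⟨h0, h1⟩ := t01 M s
  have hp := Real.pi_pos
  refine Real.cos_nonneg_of_neg_pi_div_two_le_of_le ?_ ?_
  · have : 0 ≤ Real.pi / 2 * Real.smoothTransition s ^ M := by positivity
    linarith
  · nlinarith

theorem c2_le (M : ℕ) (s : ℝ) : c2 M s ≤ 1 := Real.sin_le_one _

theorem c1_le (M : ℕ) (s : ℝ) : c1 M s ≤ 1 := Real.cos_le_one _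

/-- `τ^M ≤ c2`. -/
theorem t_le_c2 (M : ℕ) (s : ℝ) : Real.smoothTransition s ^ M ≤ c2 M s := by
  obtain ⟨h0, h1⟩ := t01 M s
  have hp := Real.pi_pos
  have := Real.mul_le_sin (x := Real.pi / 2 * Real.smoothTransition s ^ M) (by positivity)
    (by nlinarith)
  refine le_trans (le_of_eq ?_) this
  field_simp

/-- A smooth function which is constant off `[0, 1]` has bounded derivatives. -/
theorem bd_of {f : ℝ → ℝ} (hf : ContDiff ℝ ∞ f) {a b : ℝ} (h0 : ∀ s ≤ 0, f s = a)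
    (h1 : ∀ s, 1 ≤ s → f s = b) (k : ℕ) : ∃ B, 0 ≤ B ∧ ∀ s, |iteratedDeriv (k + 1) f s| ≤ B := by
  have hc : Continuous (iteratedDeriv (k + 1) f) :=
    hf.continuous_iteratedDeriv (k + 1) (by exact_mod_cast le_top)
  obtain ⟨B, hB⟩ := isCompact_Icc.exists_bound_of_continuousOn (s := Icc (0 : ℝ) 1)
    hc.continuousOn
  refine ⟨max B 0, le_max_right _ _, fun s => ?_⟩
  by_cases hs : s ∈ Icc (0 : ℝ) 1
  · exact (hB s hs).trans (le_max_left _ _)
  · have hz : iteratedDeriv (k + 1) f s = 0 := by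
      rw [mem_Icc, not_and_or, not_le, not_le] at hs
      rcases hs with hs | hs
      · have he : f =ᶠ[𝓝 s] fun _ => a := by
          filter_upwards [Iio_mem_nhds hs] with y hy using h0 y (le_of_lt hy)
        rw [Filter.EventuallyEq.iteratedDeriv_eq (k + 1) he, iteratedDeriv_const]; simp
      · have he : f =ᶠ[𝓝 s] fun _ => b := by
          filter_upwards [Ioi_mem_nhds hs] with y hy using h1 y (le_of_lt hy)
        rw [Filter.EventuallyEq.iteratedDeriv_eq (k + 1) he, iteratedDeriv_const]; simp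
    rw [hz]; simp

theorem c2_bd {M : ℕ} (hM : M ≠ 0) (k : ℕ) :
    ∃ B, 0 ≤ B ∧ ∀ s, |iteratedDeriv (k + 1) (c2 M) s| ≤ B :=
  bd_of (c2_cd M) (fun _ h => c2_zero hM h) (fun _ h => c2_one M h) k

theorem c1_bd {M : ℕ} (hM : M ≠ 0) (k : ℕ) :
    ∃ B, 0 ≤ B ∧ ∀ s, |iteratedDeriv (k + 1) (c1 M) s| ≤ B :=
  bd_of (c1_cd M) (fun _ h => c1_one hM h) (fun _ h => c1_zero M h) k

theorem st_bd : ∃ B, 0 ≤ B ∧ ∀ s, |deriv Real.smoothTransition s| ≤ B := by
  obtain ⟨B, h0, hB⟩ := bd_of Real.smoothTransition.contDiff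
    (fun _ h => Real.smoothTransition.zero_of_nonpos h)
    (fun _ h => Real.smoothTransition.one_of_one_le h) 0
  refine ⟨B, h0, fun s => ?_⟩
  have := hB s
  rwa [zero_add, iteratedDeriv_one] at this

theorem c2_deriv (M : ℕ) (s : ℝ) : deriv (c2 M) s =
    Real.cos (Real.pi / 2 * Real.smoothTransition s ^ M) *
      (Real.pi / 2 * (M * Real.smoothTransition s ^ (M - 1) * deriv Real.smoothTransition s)) := by
  have h1 : HasDerivAt Real.smoothTransition (deriv Real.smoothTransition s) s :=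
    ((Real.smoothTransition.contDiff : ContDiff ℝ ∞ Real.smoothTransition).differentiable
      (by simp) s).hasDerivAt
  exact (((h1.pow M).const_mul (Real.pi / 2)).sin).deriv

/-- **Flatness**: `|c2'|^M ≤ B c2^(M-1)`. -/
theorem c2_flat {M : ℕ} (hM : M ≠ 0) : ∃ B, 0 ≤ B ∧ ∀ s, |deriv (c2 M) s| ^ M ≤
    B * c2 M s ^ (M - 1) := by
  obtain ⟨B, h0, hB⟩ := st_bd
  refine ⟨(Real.pi / 2 * (M * B)) ^ M, by positivity, fun s => ?_⟩
  have hp := Real.pi_pos
  have ht := Real.smoothTransition.nonneg s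
  have h1 : |deriv (c2 M) s| ≤ (Real.pi / 2 * (M * B)) * Real.smoothTransition s ^ (M - 1) := by
    rw [c2_deriv, abs_mul, abs_mul, abs_mul, abs_mul]
    have e1 : |Real.pi / 2| = Real.pi / 2 := abs_of_pos (by positivity)
    have e2 : |(M : ℝ)| = M := abs_of_nonneg (by positivity)
    have e3 : |Real.smoothTransition s ^ (M - 1)| = Real.smoothTransition s ^ (M - 1) :=
      abs_of_nonneg (by positivity)
    rw [e1, e2, e3]
    have h2 : Real.pi / 2 * (M * Real.smoothTransition s ^ (M - 1) *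
        |deriv Real.smoothTransition s|) ≤
        (Real.pi / 2 * (M * B)) * Real.smoothTransition s ^ (M - 1) := by
      have h3 : (M : ℝ) * Real.smoothTransition s ^ (M - 1) * |deriv Real.smoothTransition s| ≤
          M * Real.smoothTransition s ^ (M - 1) * B :=
        mul_le_mul_of_nonneg_left (hB s) (by positivity)
      calc _ ≤ Real.pi / 2 * (M * Real.smoothTransition s ^ (M - 1) * B) :=
            mul_le_mul_of_nonneg_left h3 (by positivity)
        _ = _ := by ring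
    have h4 := Real.abs_cos_le_one (Real.pi / 2 * Real.smoothTransition s ^ M)
    refine (mul_le_of_le_one_left (by positivity) h4).trans h2
  calc |deriv (c2 M) s| ^ M
      ≤ ((Real.pi / 2 * (M * B)) * Real.smoothTransition s ^ (M - 1)) ^ M :=
        pow_le_pow_left₀ (abs_nonneg _) h1 M
    _ = (Real.pi / 2 * (M * B)) ^ M * (Real.smoothTransition s ^ M) ^ (M - 1) := by
        rw [mul_pow, ← pow_mul, ← pow_mul, mul_comm (M - 1) M]
    _ ≤ _ := mul_le_mul_of_nonneg_left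
        (pow_le_pow_left₀ (t01 M s).1 (t_le_c2 M s) _) (by positivity)

/-- Young's inequality for a flat weight: if `x ^ M ≤ B θ ^ (M-1)` then
`A x ≤ κ θ + B A (A / κ)^(M-1)`. -/
theorem flat_young {M : ℕ} (hM : M ≠ 0) {A κ θ x B : ℝ} (hA : 0 ≤ A) (hκ : 0 < κ) (hθ : 0 ≤ θ)
    (hx : 0 ≤ x) (hB : 0 ≤ B) (h : x ^ M ≤ B * θ ^ (M - 1)) :
    A * x ≤ κ * θ + B * A * (A / κ) ^ (M - 1) := by
  by_cases h1 : A * x ≤ κ * θ
  · have : 0 ≤ B * A * (A / κ) ^ (M - 1) := by positivity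
    linarith
  · push Not at h1
    -- `θ < A x / κ`
    have h2 : θ ≤ A * x / κ := by
      rw [le_div_iff₀ hκ]; linarith
    have h3 : θ ^ (M - 1) ≤ (A * x / κ) ^ (M - 1) := pow_le_pow_left₀ hθ h2 _
    have hx0 : 0 < x := by
      rcases hx.lt_or_eq with h | h
      · exact h
      · exfalso
        rw [← h, mul_zero] at h1
        have : 0 ≤ κ * θ := by positivity
        linarith
    have h4 : x ^ M = x * x ^ (M - 1) := by
      rw [← pow_succ', Nat.sub_add_cancel (Nat.pos_of_ne_zero hM)]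
    have h5 : x * x ^ (M - 1) ≤ B * ((A / κ) ^ (M - 1)) * x ^ (M - 1) := by
      rw [← h4]
      refine h.trans ((mul_le_mul_of_nonneg_left h3 hB).trans (le_of_eq ?_))
      have : A * x / κ = A / κ * x := by ring
      rw [this, mul_pow]; ring
    have h6 : x ≤ B * (A / κ) ^ (M - 1) := le_of_mul_le_mul_right h5 (by positivity)
    have h7 : A * x ≤ A * (B * (A / κ) ^ (M - 1)) := mul_le_mul_of_nonneg_left h6 hA
    have h8 : 0 ≤ κ * θ := by positivity
    calc A * x ≤ A * (B * (A / κ) ^ (M - 1)) := h7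
      _ = B * A * (A / κ) ^ (M - 1) := by ring
      _ ≤ _ := by linarith

/-- `θ = c2²`: `|θ'|^M ≤ B θ^(M-1)`. -/
theorem th_flat {M : ℕ} (hM : M ≠ 0) : ∃ B, 0 ≤ B ∧ ∀ s,
    |deriv (fun s => c2 M s ^ 2) s| ^ M ≤ B * (c2 M s ^ 2) ^ (M - 1) := by
  obtain ⟨B, h0, hB⟩ := c2_flat hM
  refine ⟨2 ^ M * B, by positivity, fun s => ?_⟩
  have hd : HasDerivAt (c2 M) (deriv (c2 M) s) s :=
    ((c2_cd M).differentiable (by simp) s).hasDerivAt
  have e1 : deriv (fun s => c2 M s ^ 2) s = 2 * (c2 M s * deriv (c2 M) s) := by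
    have := (hd.pow 2).deriv
    simp only [Nat.cast_ofNat, Nat.add_one_sub_one, pow_one] at this
    refine Eq.trans this ?_
    ring
  have h1 := c2_nonneg M s
  have h2 := c2_le M s
  rw [e1, abs_mul, abs_mul, abs_of_pos (by norm_num : (0 : ℝ) < 2), abs_of_nonneg h1, mul_pow,
    mul_pow, mul_assoc]
  refine mul_le_mul_of_nonneg_left ?_ (by positivity)
  have h3 := mul_le_mul_of_nonneg_left (hB s) (pow_nonneg h1 M)
  refine h3.trans ?_
  have e2 : c2 M s ^ M = c2 M s ^ (M - 1) * c2 M s := by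
    rw [← pow_succ, Nat.sub_add_cancel (Nat.pos_of_ne_zero hM)]
  have e3 : (c2 M s ^ 2) ^ (M - 1) = c2 M s ^ (M - 1) * c2 M s ^ (M - 1) := by
    rw [← pow_mul, two_mul, pow_add]
  rw [e2, e3]
  have h4 : 0 ≤ c2 M s ^ (M - 1) := by positivity
  have h5 : c2 M s ^ (M - 1) * c2 M s ≤ c2 M s ^ (M - 1) := mul_le_of_le_one_right h4 h2
  calc c2 M s ^ (M - 1) * c2 M s * (B * c2 M s ^ (M - 1))
      ≤ c2 M s ^ (M - 1) * (B * c2 M s ^ (M - 1)) :=
        mul_le_mul_of_nonneg_right h5 (by positivity)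
    _ = _ := by ring

end Vale.Agent.P088.R2.H591.C
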